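import Mathlib

/-! Abstract measure-theoretic part: duality, optimality and non-existence of a Monge optimizer. -/

set_option autoImplicit false

namespace Crest.Agent.R130

open MeasureTheory Set Filter
open scoped ENNReal

/-- The admissible patterns of blobs. -/
def good (i j k : Fin 5) : Prop :=
  i ≠ j ∧ i ≠ k ∧ j ≠ k ∧ ((i ≤ 2 ∧ j ≤ 2 ∧ k ≤ 2) ∨
    ((i = 0 ∨ 3 ≤ i) ∧ (j = 0 ∨ 3 ≤ j) ∧ (k = 0 ∨ 3 ≤ k)))

instance (i j k : Fin 5) : Decidable (good i j k) := by unfold good; infer_instance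

theorem good_count : ∀ i j k : Fin 5, good i j k →
    (if j = 1 then 1 else 0) + (if k = 1 then 1 else 0) =
      (if i = 0 ∧ (j = 1 ∨ k = 1) then 1 else 0) + (if i = 2 then 1 else (0 : ℕ)) := by
  decide

variable {X : Type*} [MeasurableSpace X]

/-- The marginal measure. -/
noncomputable def bigMu (α : Measure X) (f : Fin 5 → X → X) : Measure X :=
  α.map (f 0) + α.map (f 0) + α.map (f 1) + α.map (f 2) + α.map (f 3) + α.map (f 4)

/-- The graph plan of a pattern. -/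
noncomputable def gr (α : Measure X) (f : Fin 5 → X → X) (i j k : Fin 5) : Measure (X × X × X) :=
  α.map fun a => (f i a, f j a, f k a)

/-- The optimal plan. -/
noncomputable def bigPi (α : Measure X) (f : Fin 5 → X → X) : Measure (X × X × X) :=
  gr α f 0 1 2 + gr α f 1 2 0 + gr α f 2 0 1 + gr α f 0 3 4 + gr α f 3 4 0 + gr α f 4 0 3

theorem gr_map {α : Measure X} {f : Fin 5 → X → X} (hf : ∀ i, Measurable (f i)) (i j k : Fin 5) :
    (gr α f i j k).map (fun p => p.1) = α.map (f i) ∧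
    (gr α f i j k).map (fun p => p.2.1) = α.map (f j) ∧
    (gr α f i j k).map (fun p => p.2.2) = α.map (f k) := by
  have hm : Measurable fun a => (f i a, f j a, f k a) := (hf i).prodMk ((hf j).prodMk (hf k))
  refine ⟨?_, ?_, ?_⟩ <;>
  · unfold gr
    rw [Measure.map_map (by fun_prop) hm]
    rfl

theorem bigPi_marginals {α : Measure X} {f : Fin 5 → X → X} (hf : ∀ i, Measurable (f i)) :
    (bigPi α f).map (fun p => p.1) = bigMu α f ∧
    (bigPi α f).map (fun p => p.2.1) = bigMu α f ∧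
    (bigPi α f).map (fun p => p.2.2) = bigMu α f := by
  have m1 : Measurable fun p : X × X × X => p.1 := by fun_prop
  have m2 : Measurable fun p : X × X × X => p.2.1 := by fun_prop
  have m3 : Measurable fun p : X × X × X => p.2.2 := by fun_prop
  refine ⟨?_, ?_, ?_⟩
  · simp only [bigPi, bigMu, Measure.map_add _ _ m1, (gr_map hf _ _ _).1]
    abel
  · simp only [bigPi, bigMu, Measure.map_add _ _ m2, (gr_map hf _ _ _).2.1]
    abel
  · simp only [bigPi, bigMu, Measure.map_add _ _ m3, (gr_map hf _ _ _).2.2]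
    abel

theorem lintegral_triple {μ : Measure X} {π : Measure (X × X × X)} {U : X → ℝ≥0∞}
    (hU : Measurable U) (h1 : π.map (fun p => p.1) = μ) (h2 : π.map (fun p => p.2.1) = μ)
    (h3 : π.map (fun p => p.2.2) = μ) :
    ∫⁻ p, (U p.1 + U p.2.1 + U p.2.2) ∂π = ∫⁻ x, U x ∂μ + ∫⁻ x, U x ∂μ + ∫⁻ x, U x ∂μ := by
  have m1 : Measurable fun p : X × X × X => p.1 := by fun_prop
  have m2 : Measurable fun p : X × X × X => p.2.1 := by fun_prop
  have m3 : Measurable fun p : X × X × X => p.2.2 := by fun_prop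
  rw [lintegral_add_right _ (show Measurable fun p : X × X × X => U p.2.2 from hU.comp m3),
    lintegral_add_right _ (show Measurable fun p : X × X × X => U p.2.1 from hU.comp m2)]
  congr 1
  · congr 1
    · rw [← h1, lintegral_map hU m1]
    · rw [← h2, lintegral_map hU m2]
  · rw [← h3, lintegral_map hU m3]

/-- All the data of the construction. -/
structure Setup (X : Type*) [MeasurableSpace X] where
  A : Set X
  f : Fin 5 → X → X
  α : Measure X
  c : X × X × X → ℝ≥0∞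
  U : X → ℝ≥0∞
  hA : MeasurableSet A
  hf : ∀ i, Measurable (f i)
  hmem : ∀ i j, ∀ a ∈ A, ∀ a' ∈ A, f i a = f j a' → i = j ∧ a = a'
  hf0 : ∀ a ∈ A, f 0 a = a
  himg : ∀ i D, MeasurableSet D → D ⊆ A → MeasurableSet (f i '' D)
  hαA : ∀ᵐ a ∂α, a ∈ A
  hαfin : α univ ≠ ⊤
  hα0 : α univ ≠ 0
  hc : Measurable c
  hU : Measurable U
  hUfin : ∫⁻ x, U x ∂(bigMu α f) ≠ ⊤
  hle : ∀ i j k, ∀ a ∈ A, ∀ a' ∈ A, ∀ a'' ∈ A,
    U (f i a) + U (f j a') + U (f k a'') ≤ c (f i a, f j a', f k a'')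
  heq : ∀ i j k, ∀ a ∈ A, ∀ a' ∈ A, ∀ a'' ∈ A,
    U (f i a) + U (f j a') + U (f k a'') = c (f i a, f j a', f k a'') →
      good i j k ∧ a = a' ∧ a' = a''
  hdiag : ∀ i j k, good i j k → ∀ a ∈ A,
    U (f i a) + U (f j a) + U (f k a) = c (f i a, f j a, f k a)

namespace Setup

variable (S : Setup X)

theorem ae_mu : ∀ᵐ x ∂(bigMu S.α S.f), ∃ i, ∃ a ∈ S.A, x = S.f i a := by
  have hm : MeasurableSet {x | ∃ i, ∃ a ∈ S.A, x = S.f i a} := by
    have : {x | ∃ i, ∃ a ∈ S.A, x = S.f i a} = ⋃ i, S.f i '' S.A := by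
      ext x
      simp only [mem_ofPred_eq, mem_iUnion, mem_image]
      exact exists_congr fun i => exists_congr fun a => and_congr_right fun _ => eq_comm
    rw [this]
    exact MeasurableSet.iUnion fun i => S.himg i _ S.hA subset_rfl
  have h : ∀ i, ∀ᵐ x ∂(S.α.map (S.f i)), ∃ i, ∃ a ∈ S.A, x = S.f i a := fun i => by
    rw [ae_map_iff (S.hf i).aemeasurable hm]
    filter_upwards [S.hαA] with a ha using ⟨i, a, ha, rfl⟩
  simp only [bigMu, ae_add_measure_iff]
  exact ⟨⟨⟨⟨⟨h 0, h 0⟩, h 1⟩, h 2⟩, h 3⟩, h 4⟩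

theorem ae_le {π : Measure (X × X × X)} (h1 : π.map (fun p => p.1) = bigMu S.α S.f)
    (h2 : π.map (fun p => p.2.1) = bigMu S.α S.f) (h3 : π.map (fun p => p.2.2) = bigMu S.α S.f) :
    ∀ᵐ p ∂π, ∃ i j k, ∃ a ∈ S.A, ∃ a' ∈ S.A, ∃ a'' ∈ S.A,
      p = (S.f i a, S.f j a', S.f k a'') := by
  have m1 : Measurable fun p : X × X × X => p.1 := by fun_prop
  have m2 : Measurable fun p : X × X × X => p.2.1 := by fun_prop
  have m3 : Measurable fun p : X × X × X => p.2.2 := by fun_prop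
  have a1 := ae_of_ae_map m1.aemeasurable (h1 ▸ S.ae_mu)
  have a2 := ae_of_ae_map m2.aemeasurable (h2 ▸ S.ae_mu)
  have a3 := ae_of_ae_map m3.aemeasurable (h3 ▸ S.ae_mu)
  filter_upwards [a1, a2, a3] with p ⟨i, a, ha, hi⟩ ⟨j, a', ha', hj⟩ ⟨k, a'', ha'', hk⟩
  exact ⟨i, j, k, a, ha, a', ha', a'', ha'', Prod.ext hi (Prod.ext hj hk)⟩

theorem lower_bound {π : Measure (X × X × X)} (h1 : π.map (fun p => p.1) = bigMu S.α S.f)
    (h2 : π.map (fun p => p.2.1) = bigMu S.α S.f) (h3 : π.map (fun p => p.2.2) = bigMu S.α S.f) :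
    ∫⁻ x, S.U x ∂(bigMu S.α S.f) + ∫⁻ x, S.U x ∂(bigMu S.α S.f) + ∫⁻ x, S.U x ∂(bigMu S.α S.f)
      ≤ ∫⁻ p, S.c p ∂π := by
  rw [← lintegral_triple S.hU h1 h2 h3]
  apply lintegral_mono_ae
  filter_upwards [S.ae_le h1 h2 h3] with p ⟨i, j, k, a, ha, a', ha', a'', ha'', hp⟩
  rw [hp]
  exact S.hle i j k a ha a' ha' a'' ha''

theorem ae_bigPi (P : X × X × X → Prop) (hP : MeasurableSet {p | P p})
    (h : ∀ i j k, good i j k → ∀ a ∈ S.A, P (S.f i a, S.f j a, S.f k a)) :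
    ∀ᵐ p ∂(bigPi S.α S.f), P p := by
  have h' : ∀ i j k, good i j k → ∀ᵐ p ∂(gr S.α S.f i j k), P p := fun i j k hg => by
    unfold gr
    rw [ae_map_iff ((S.hf i).prodMk ((S.hf j).prodMk (S.hf k))).aemeasurable hP]
    filter_upwards [S.hαA] with a ha using h i j k hg a ha
  simp only [bigPi, ae_add_measure_iff]
  exact ⟨⟨⟨⟨⟨h' _ _ _ (by decide), h' _ _ _ (by decide)⟩, h' _ _ _ (by decide)⟩,
    h' _ _ _ (by decide)⟩, h' _ _ _ (by decide)⟩, h' _ _ _ (by decide)⟩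

theorem cost_bigPi : ∫⁻ p, S.c p ∂(bigPi S.α S.f) =
    ∫⁻ x, S.U x ∂(bigMu S.α S.f) + ∫⁻ x, S.U x ∂(bigMu S.α S.f) +
      ∫⁻ x, S.U x ∂(bigMu S.α S.f) := by
  obtain ⟨h1, h2, h3⟩ := bigPi_marginals (α := S.α) S.hf
  rw [← lintegral_triple S.hU h1 h2 h3]
  apply lintegral_congr_ae
  have hU := S.hU
  refine S.ae_bigPi (fun p => S.c p = S.U p.1 + S.U p.2.1 + S.U p.2.2)
    (measurableSet_eq_fun S.hc (by fun_prop)) fun i j k hg a ha => (S.hdiag i j k hg a ha).symm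

theorem mem_image_iff {D : Set X} (hD : D ⊆ S.A) (i j : Fin 5) {a : X} (ha : a ∈ S.A) :
    S.f i a ∈ S.f j '' D ↔ i = j ∧ a ∈ D := by
  constructor
  · rintro ⟨a', ha', h⟩
    obtain ⟨h1, h2⟩ := S.hmem j i a' (hD ha') a ha h
    exact ⟨h1.symm, h2 ▸ ha'⟩
  · rintro ⟨rfl, h⟩
    exact ⟨a, h, rfl⟩

theorem map_image {D : Set X} (hDm : MeasurableSet D) (hD : D ⊆ S.A) (i j : Fin 5) :
    S.α.map (S.f i) (S.f j '' D) = if i = j then S.α D else 0 := by
  rw [Measure.map_apply (S.hf i) (S.himg j D hDm hD)]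
  split_ifs with h
  · apply measure_congr
    filter_upwards [S.hαA] with a ha
    exact propext ((S.mem_image_iff hD i j ha).trans (and_iff_right h))
  · rw [← measure_empty (μ := S.α)]
    apply measure_congr
    filter_upwards [S.hαA] with a ha
    exact propext ((S.mem_image_iff hD i j ha).trans ⟨fun h' => absurd h'.1 h, fun h' => h'.elim⟩)

theorem no_monge (T₂ T₃ : X → X) (hT₂ : Measurable T₂) (hT₃ : Measurable T₃)
    (h₂ : (bigMu S.α S.f).map T₂ = bigMu S.α S.f) (h₃ : (bigMu S.α S.f).map T₃ = bigMu S.α S.f) :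
    ∫⁻ p, S.c p ∂(bigPi S.α S.f) < ∫⁻ x, S.c (x, T₂ x, T₃ x) ∂(bigMu S.α S.f) := by
  classical
  set μ := bigMu S.α S.f with hμ
  by_contra hcon
  rw [not_lt, S.cost_bigPi] at hcon
  have hT : Measurable fun x => (x, T₂ x, T₃ x) := measurable_id.prodMk (hT₂.prodMk hT₃)
  let π := μ.map fun x => (x, T₂ x, T₃ x)
  have h1 : π.map (fun p => p.1) = μ := by
    rw [Measure.map_map (by fun_prop) hT]; exact Measure.map_id
  have h2 : π.map (fun p => p.2.1) = μ := by
    rw [Measure.map_map (by fun_prop) hT]; exact h₂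
  have h3 : π.map (fun p => p.2.2) = μ := by
    rw [Measure.map_map (by fun_prop) hT]; exact h₃
  rw [← lintegral_map S.hc hT, ← lintegral_triple S.hU h1 h2 h3] at hcon
  have hpat := S.ae_le h1 h2 h3
  have hle : (fun p : X × X × X => S.U p.1 + S.U p.2.1 + S.U p.2.2) ≤ᵐ[π] S.c := by
    filter_upwards [hpat] with p ⟨i, j, k, a, ha, a', ha', a'', ha'', hp⟩
    rw [hp]
    exact S.hle i j k a ha a' ha' a'' ha''
  have hfin : ∫⁻ p, (S.U p.1 + S.U p.2.1 + S.U p.2.2) ∂π ≠ ⊤ := by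
    rw [lintegral_triple S.hU h1 h2 h3]
    exact ENNReal.add_ne_top.2 ⟨ENNReal.add_ne_top.2 ⟨S.hUfin, S.hUfin⟩, S.hUfin⟩
  have heq := ae_eq_of_ae_le_of_lintegral_le hle hfin S.hc.aemeasurable hcon
  have hgood : ∀ᵐ x ∂μ, ∃ i j k, good i j k ∧ ∃ a ∈ S.A,
      x = S.f i a ∧ T₂ x = S.f j a ∧ T₃ x = S.f k a := by
    have := ae_of_ae_map hT.aemeasurable (hpat.and heq)
    filter_upwards [this] with x ⟨⟨i, j, k, a, ha, a', ha', a'', ha'', hp⟩, hx⟩
    simp only [Prod.mk.injEq] at hp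
    obtain ⟨hp1, hp2, hp3⟩ := hp
    simp only [hp2, hp3] at hx
    rw [hp1] at hx
    obtain ⟨hg, rfl, rfl⟩ := S.heq i j k a ha a' ha' a'' ha'' hx
    exact ⟨i, j, k, hg, a, ha, hp1, hp2, hp3⟩
  let A1 : Set X := T₂ ⁻¹' (S.f 1 '' S.A) ∪ T₃ ⁻¹' (S.f 1 '' S.A)
  have hS1 := S.himg 1 S.A S.hA subset_rfl
  have hA1 : MeasurableSet A1 := (hT₂ hS1).union (hT₃ hS1)
  have key : ∀ D, MeasurableSet D → D ⊆ S.A → S.α D = S.α (D ∩ A1) + S.α (D ∩ A1) := by
    intro D hDm hD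
    have m1 := S.himg 1 D hDm hD
    have m2 := S.himg 2 D hDm hD
    have hDA : D ∩ A1 ⊆ S.A := fun x hx => hD hx.1
    have m0 := S.himg 0 _ (hDm.inter hA1) hDA
    have hid : ∀ᵐ x ∂μ, (T₂ ⁻¹' (S.f 1 '' D)).indicator (1 : X → ℝ≥0∞) x +
        (T₃ ⁻¹' (S.f 1 '' D)).indicator (1 : X → ℝ≥0∞) x =
        (S.f 0 '' (D ∩ A1)).indicator (1 : X → ℝ≥0∞) x + (S.f 2 '' D).indicator 1 x := by
      filter_upwards [hgood] with x ⟨i, j, k, hg, a, ha, hx, hx2, hx3⟩
      have e1 : x ∈ T₂ ⁻¹' (S.f 1 '' D) ↔ j = 1 ∧ a ∈ D := by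
        rw [mem_preimage, hx2, S.mem_image_iff hD j 1 ha]
      have e2 : x ∈ T₃ ⁻¹' (S.f 1 '' D) ↔ k = 1 ∧ a ∈ D := by
        rw [mem_preimage, hx3, S.mem_image_iff hD k 1 ha]
      have e3 : x ∈ S.f 0 '' (D ∩ A1) ↔ (i = 0 ∧ (j = 1 ∨ k = 1)) ∧ a ∈ D := by
        have : x ∈ S.f 0 '' (D ∩ A1) ↔ i = 0 ∧ a ∈ D ∩ A1 := by
          rw [hx, S.mem_image_iff hDA i 0 ha]
        rw [this]
        constructor
        · rintro ⟨rfl, h, h'⟩
          rw [S.hf0 a ha] at hx
          subst hx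
          refine ⟨⟨rfl, ?_⟩, h⟩
          rcases h' with h' | h'
          · rw [mem_preimage, hx2, S.mem_image_iff subset_rfl j 1 ha] at h'
            exact Or.inl h'.1
          · rw [mem_preimage, hx3, S.mem_image_iff subset_rfl k 1 ha] at h'
            exact Or.inr h'.1
        · rintro ⟨⟨rfl, h'⟩, h⟩
          rw [S.hf0 a ha] at hx
          subst hx
          refine ⟨rfl, h, ?_⟩
          rcases h' with h' | h'
          · left
            rw [mem_preimage, hx2, S.mem_image_iff subset_rfl j 1 ha]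
            exact ⟨h', ha⟩
          · right
            rw [mem_preimage, hx3, S.mem_image_iff subset_rfl k 1 ha]
            exact ⟨h', ha⟩
      have e4 : x ∈ S.f 2 '' D ↔ i = 2 ∧ a ∈ D := by
        rw [hx, S.mem_image_iff hD i 2 ha]
      simp only [indicator_apply, e1, e2, e3, e4, Pi.one_apply]
      by_cases haD : a ∈ D
      · simp only [haD, and_true]
        have := congrArg (fun n : ℕ => (n : ℝ≥0∞)) (good_count i j k hg)
        simpa only [Nat.cast_add, Nat.cast_ite, Nat.cast_one, Nat.cast_zero] using this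
      · simp [haD]
    have hint := lintegral_congr_ae hid
    rw [lintegral_add_right _ (measurable_one.indicator (hT₃ m1)),
      lintegral_add_right _ (measurable_one.indicator m2),
      lintegral_indicator_one (hT₂ m1), lintegral_indicator_one (hT₃ m1),
      lintegral_indicator_one m0, lintegral_indicator_one m2,
      ← Measure.map_apply hT₂ m1, ← Measure.map_apply hT₃ m1, h₂, h₃] at hint
    simp only [hμ, bigMu, Measure.add_apply, S.map_image hDm hD,
      S.map_image (hDm.inter hA1) hDA] at hint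
    simp only [Fin.reduceEq, ↓reduceIte, add_zero, zero_add] at hint
    have hfinD : S.α D ≠ ⊤ := ne_top_of_le_ne_top S.hαfin (measure_mono (subset_univ _))
    exact (ENNReal.add_left_inj hfinD).1 hint
  have k1 := key (S.A \ A1) (S.hA.diff hA1) sdiff_subset
  have k2 := key (S.A ∩ A1) (S.hA.inter hA1) inter_subset_left
  rw [sdiff_inter_self, measure_empty, add_zero] at k1
  rw [inter_assoc, inter_self] at k2
  have hfinD : S.α (S.A ∩ A1) ≠ ⊤ := ne_top_of_le_ne_top S.hαfin (measure_mono (subset_univ _))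
  have k3 : S.α (S.A ∩ A1) = 0 := by
    have : S.α (S.A ∩ A1) + 0 = S.α (S.A ∩ A1) + S.α (S.A ∩ A1) := by rw [add_zero]; exact k2
    exact ((ENNReal.add_right_inj hfinD).1 this).symm
  have k4 : S.α S.A = 0 := by
    rw [← measure_inter_add_sdiff S.A hA1, k1, k3, add_zero]
  apply S.hα0
  rw [← k4]
  apply measure_congr
  filter_upwards [S.hαA] with a ha
  exact propext ⟨fun _ => ha, fun _ => trivial⟩

end Setup

end Crest.Agent.R130
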