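import Mathlib

/-! Local diffeomorphisms and push-forward of smooth-square densities. -/

set_option autoImplicit false

namespace Crest.Agent.R130

open MeasureTheory Set Filter Topology Metric
open scoped ENNReal ContDiff

section det

variable {V : Type*} [NormedAddCommGroup V] [NormedSpace ℝ V] [FiniteDimensional ℝ V]

theorem contDiff_clm_det : ContDiff ℝ ∞ (fun A : V →L[ℝ] V => A.det) := by
  classical
  let b := Module.finBasis ℝ V
  have h : (fun A : V →L[ℝ] V => A.det) = fun A : V →L[ℝ] V =>
      ∑ σ : Equiv.Perm (Fin (Module.finrank ℝ V)), ((Equiv.Perm.sign σ : ℤ) : ℝ) *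
        ∏ i, b.repr (A (b i)) (σ i) := by
    funext A
    change LinearMap.det (A : V →ₗ[ℝ] V) = _
    rw [← LinearMap.det_toMatrix b, Matrix.det_apply']
    simp [LinearMap.toMatrix_apply]
  rw [h]
  refine ContDiff.sum fun σ _ => contDiff_const.mul (contDiff_prod fun i _ => ?_)
  let L : (V →L[ℝ] V) →ₗ[ℝ] ℝ :=
    { toFun := fun A => b.repr (A (b i)) (σ i)
      map_add' := by intro A B; simp
      map_smul' := by intro c A; simp }
  exact (LinearMap.toContinuousLinearMap L).contDiff

/-- An injective endomorphism has non-zero determinant. -/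
theorem det_ne_zero_of_injective (A : V →L[ℝ] V) (h : Function.Injective A) : A.det ≠ 0 := by
  intro h0
  have := LinearMap.bot_lt_ker_of_det_eq_zero (f := (A : V →ₗ[ℝ] V)) h0
  rw [LinearMap.ker_eq_bot.2 h] at this
  exact lt_irrefl _ this

/-- Inverse function theorem, packaged. -/
theorem exists_localDiffeo (f : V → V) (U : Set V) (hU : IsOpen U) (a : V) (ha : a ∈ U)
    (hf : ContDiffOn ℝ ∞ f U) (hinj : Function.Injective (fderiv ℝ f a)) :
    ∃ e : OpenPartialHomeomorph V V, (e : V → V) = f ∧ a ∈ e.source ∧ e.source ⊆ U ∧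
      ContDiffOn ℝ ∞ e.symm e.target := by
  have hca : ∀ x ∈ U, ContDiffAt ℝ ∞ f x := fun x hx => hf.contDiffAt (hU.mem_nhds hx)
  have hder : ∀ x ∈ U, (fderiv ℝ f x).det ≠ 0 →
      ∃ f' : V ≃L[ℝ] V, HasFDerivAt f (f' : V →L[ℝ] V) x := by
    intro x hx hd
    refine ⟨(fderiv ℝ f x).toContinuousLinearEquivOfDetNeZero hd, ?_⟩
    rw [ContinuousLinearMap.coe_toContinuousLinearEquivOfDetNeZero]
    exact ((hca x hx).differentiableAt (by simp)).hasFDerivAt
  have hcont : ContinuousOn (fun x => (fderiv ℝ f x).det) U :=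
    ContinuousLinearMap.continuous_det.comp_continuousOn
      (hf.continuousOn_fderiv_of_isOpen hU (by simp))
  let W : Set V := U ∩ (fun x => (fderiv ℝ f x).det) ⁻¹' {0}ᶜ
  have hW : IsOpen W := hcont.isOpen_inter_preimage hU isOpen_compl_singleton
  have haW : a ∈ W := ⟨ha, det_ne_zero_of_injective _ hinj⟩
  obtain ⟨f', hf'⟩ := hder a ha haW.2
  let e0 := (hca a ha).toOpenPartialHomeomorph f hf' (by simp)
  refine ⟨e0.restrOpen W hW, rfl, ?_, ?_, ?_⟩
  · rw [OpenPartialHomeomorph.restrOpen_source]
    exact ⟨(hca a ha).mem_toOpenPartialHomeomorph_source hf' (by simp), haW⟩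
  · rw [OpenPartialHomeomorph.restrOpen_source]
    exact fun x hx => hx.2.1
  · intro y hy
    have hx := (e0.restrOpen W hW).map_target hy
    rw [OpenPartialHomeomorph.restrOpen_source] at hx
    obtain ⟨g', hg'⟩ := hder _ hx.2.1 hx.2.2
    exact ((e0.restrOpen W hW).contDiffAt_symm hy hg' (hca _ hx.2.1)).contDiffWithinAt

theorem det_fderiv_symm_ne_zero (e : OpenPartialHomeomorph V V)
    (h1 : ContDiffOn ℝ ∞ e e.source) (h2 : ContDiffOn ℝ ∞ e.symm e.target) {y : V}
    (hy : y ∈ e.target) : (fderiv ℝ e.symm y).det ≠ 0 := by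
  apply det_ne_zero_of_injective
  have hd1 : DifferentiableAt ℝ e (e.symm y) :=
    (h1.contDiffAt (e.open_source.mem_nhds (e.map_target hy))).differentiableAt (by simp)
  have hd2 : DifferentiableAt ℝ e.symm y :=
    (h2.contDiffAt (e.open_target.mem_nhds hy)).differentiableAt (by simp)
  have hc := hd1.hasFDerivAt.comp y hd2.hasFDerivAt
  have heq : (e ∘ e.symm) =ᶠ[𝓝 y] id := by
    filter_upwards [e.open_target.mem_nhds hy] with z hz
    exact e.right_inv hz
  have := (hc.congr_of_eventuallyEq heq.symm).unique (hasFDerivAt_id y)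
  intro v w hvw
  have hv := congrArg (fun A : V →L[ℝ] V => A v) this
  have hw := congrArg (fun A : V →L[ℝ] V => A w) this
  simp only [ContinuousLinearMap.comp_apply, ContinuousLinearMap.id_apply] at hv hw
  rw [← hv, ← hw, hvw]

end det

section push

variable {V : Type*} [NormedAddCommGroup V] [NormedSpace ℝ V] [FiniteDimensional ℝ V]
  [MeasurableSpace V] [BorelSpace V]

/-- Push-forward of a density `g ^ 2` under a local diffeomorphism is again of this form. -/
theorem exists_push_density (vol : Measure V) [vol.IsAddHaarMeasure]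
    (e : OpenPartialHomeomorph V V)
    (h1 : ContDiffOn ℝ ∞ e e.source) (h2 : ContDiffOn ℝ ∞ e.symm e.target)
    (K : Set V) (hK : IsCompact K) (hKs : K ⊆ e.source)
    (g : V → ℝ) (hg : ContDiff ℝ ∞ g) (hg0 : ∀ x, 0 ≤ g x) (hgK : ∀ x, x ∉ K → g x = 0)
    (f : V → V) (hf : Measurable f) (hfe : EqOn f e K) :
    ∃ g' : V → ℝ, ContDiff ℝ ∞ g' ∧ (∀ y, 0 ≤ g' y) ∧ (∀ y, y ∉ e '' K → g' y = 0) ∧
      (vol.withDensity fun x => ENNReal.ofReal (g x ^ 2)).map f =
        vol.withDensity fun y => ENNReal.ofReal (g' y ^ 2) := by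
  classical
  let J : V → ℝ := fun y => |(fderiv ℝ e.symm y).det|
  let g' : V → ℝ := e.target.indicator fun y => g (e.symm y) * Real.sqrt (J y)
  have hK' : IsCompact (e '' K) := hK.image_of_continuousOn (e.continuousOn.mono hKs)
  have hK't : e '' K ⊆ e.target := by
    rintro _ ⟨x, hx, rfl⟩; exact e.map_source (hKs hx)
  have hzero : ∀ y, y ∉ e '' K → g' y = 0 := by
    intro y hy
    by_cases hyt : y ∈ e.target
    · have : e.symm y ∉ K := fun h => hy ⟨_, h, e.right_inv hyt⟩
      simp [g', indicator_of_mem hyt, hgK _ this]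
    · simp [g', indicator_of_notMem hyt]
  have hsm : ContDiff ℝ ∞ g' := by
    rw [contDiff_iff_contDiffAt]
    intro y
    by_cases hyt : y ∈ e.target
    · have hs : ContDiffAt ℝ ∞ e.symm y := h2.contDiffAt (e.open_target.mem_nhds hyt)
      have hd : ContDiffAt ℝ ∞ (fun y => (fderiv ℝ e.symm y).det) y :=
        contDiff_clm_det.contDiffAt.comp y (hs.fderiv_right (by simp))
      have hne := det_fderiv_symm_ne_zero e h1 h2 hyt
      have hJ : ContDiffAt ℝ ∞ J y := hd.abs hne
      have : ContDiffAt ℝ ∞ (fun y => g (e.symm y) * Real.sqrt (J y)) y :=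
        (hg.contDiffAt.comp y hs).mul (hJ.sqrt (abs_ne_zero.2 hne))
      refine this.congr_of_eventuallyEq ?_
      filter_upwards [e.open_target.mem_nhds hyt] with z hz
      simp [g', indicator_of_mem hz]
    · have hy : y ∉ e '' K := fun h => hyt (hK't h)
      refine (contDiffAt_const (c := (0 : ℝ))).congr_of_eventuallyEq ?_
      filter_upwards [hK'.isClosed.isOpen_compl.mem_nhds hy] with z hz
      exact hzero z hz
  refine ⟨g', hsm, ?_, hzero, ?_⟩
  · intro y
    exact indicator_nonneg (fun z _ => mul_nonneg (hg0 _) (Real.sqrt_nonneg _)) y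
  · ext T hT
    rw [Measure.map_apply hf hT, withDensity_apply _ (hf hT), withDensity_apply _ hT]
    have hTm : MeasurableSet (T ∩ e.target) := hT.inter e.open_target.measurableSet
    have hcv := lintegral_image_eq_lintegral_abs_det_fderiv_mul vol hTm
      (f := e.symm) (f' := fun y => fderiv ℝ e.symm y)
      (fun y hy => ((h2.contDiffAt (e.open_target.mem_nhds hy.2)).differentiableAt
        (by simp)).hasFDerivAt.hasFDerivWithinAt)
      (e.symm.injOn.mono inter_subset_right) (fun x => ENNReal.ofReal (g x ^ 2))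
    have hR : ∫⁻ y in T, ENNReal.ofReal (g' y ^ 2) ∂vol =
        ∫⁻ y in T ∩ e.target, ENNReal.ofReal |(fderiv ℝ e.symm y).det| *
          ENNReal.ofReal (g (e.symm y) ^ 2) ∂vol := by
      rw [← lintegral_indicator hT, ← lintegral_indicator hTm]
      congr 1
      funext y
      by_cases hy : y ∈ T
      · by_cases hyt : y ∈ e.target
        · rw [indicator_of_mem hy, indicator_of_mem (show y ∈ T ∩ e.target from ⟨hy, hyt⟩)]
          simp only [g', indicator_of_mem hyt, J]
          rw [mul_pow, Real.sq_sqrt (abs_nonneg _), mul_comm,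
            ENNReal.ofReal_mul (abs_nonneg _)]
        · rw [indicator_of_mem hy, indicator_of_notMem (fun h => hyt h.2)]
          simp [g', indicator_of_notMem hyt]
      · rw [indicator_of_notMem hy, indicator_of_notMem (fun h => hy h.1)]
    have him : MeasurableSet (e.symm '' (T ∩ e.target)) :=
      hTm.image_of_continuousOn_injOn (e.continuousOn_symm.mono inter_subset_right)
        (e.symm.injOn.mono inter_subset_right)
    rw [hR, ← hcv, ← lintegral_indicator (hf hT), ← lintegral_indicator him]
    congr 1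
    funext x
    by_cases hx : x ∈ K
    · have hxs := hKs hx
      by_cases hxT : f x ∈ T
      · rw [indicator_of_mem (show x ∈ f ⁻¹' T from hxT), indicator_of_mem]
        exact ⟨e x, ⟨hfe hx ▸ hxT, e.map_source hxs⟩, e.left_inv hxs⟩
      · rw [indicator_of_notMem (show x ∉ f ⁻¹' T from hxT), indicator_of_notMem]
        rintro ⟨y, hy, rfl⟩
        apply hxT
        rw [hfe hx, e.right_inv hy.2]
        exact hy.1
    · simp [indicator_apply, hgK x hx]

end push

end Crest.Agent.R130
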