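import Mathlib
import Crest.Agent.R130.Diffeo

/-! The inverse-power kernel, its gradient, and two elementary lemmas. -/

set_option autoImplicit false
set_option linter.unusedSectionVars false
set_option linter.deprecated false
set_option linter.unusedSimpArgs false

namespace Crest.Agent.R130

open Set Filter Topology Metric
open scoped ContDiff RealInnerProductSpace

variable {E : Type*} [NormedAddCommGroup E] [InnerProductSpace ℝ E]

/-- The kernel `‖v‖ ^ (-s)`. -/
noncomputable def kphi (s : ℝ) (v : E) : ℝ := ‖v‖ ^ (-s)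

/-- Its gradient. -/
noncomputable def kgrad (s : ℝ) (v : E) : E := (-s * (‖v‖ ^ 2) ^ (-s / 2 - 1)) • v

theorem kphi_eq (s : ℝ) (v : E) : kphi s v = (‖v‖ ^ 2) ^ (-s / 2) := by
  unfold kphi
  rw [← Real.rpow_natCast, ← Real.rpow_mul (norm_nonneg _)]
  congr 1
  push_cast
  ring

theorem kphi_neg (s : ℝ) (v : E) : kphi s (-v) = kphi s v := by simp [kphi]

theorem kgrad_neg (s : ℝ) (v : E) : kgrad s (-v) = -kgrad s v := by simp [kgrad]

theorem hasFDerivAt_kphi (s : ℝ) {v : E} (hv : v ≠ 0) :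
    HasFDerivAt (kphi s : E → ℝ) (innerSL ℝ (kgrad s v)) v := by
  have h0 : ‖v‖ ^ 2 ≠ 0 := pow_ne_zero _ (norm_ne_zero_iff.2 hv)
  have h := (hasStrictFDerivAt_norm_sq v).hasFDerivAt.rpow_const (p := -s / 2) (Or.inl h0)
  have he : (kphi s : E → ℝ) = fun x => (‖x‖ ^ 2) ^ (-s / 2) := funext (kphi_eq s)
  rw [he]
  convert h using 1
  ext w
  simp [kgrad, inner_smul_left]
  ring

theorem contDiffOn_kgrad (s : ℝ) : ContDiffOn ℝ ∞ (kgrad s : E → E) {0}ᶜ := by
  intro v hv
  have h0 : ‖v‖ ^ 2 ≠ 0 := pow_ne_zero _ (norm_ne_zero_iff.2 hv)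
  have h1 : ContDiffAt ℝ ∞ (fun x : E => (‖x‖ ^ 2) ^ (-s / 2 - 1)) v :=
    (contDiff_norm_sq ℝ).contDiffAt.rpow_const_of_ne h0
  exact ((contDiffAt_const.mul h1).smul contDiffAt_id).contDiffWithinAt

theorem injective_fderiv_kgrad {s : ℝ} (hs : 0 < s) {v : E} (hv : v ≠ 0) :
    Function.Injective (fderiv ℝ (kgrad s : E → E) v) := by
  have hpos : 0 < ‖v‖ ^ 2 := pow_pos (norm_pos_iff.2 hv) _
  have h0 : ‖v‖ ^ 2 ≠ 0 := hpos.ne'
  have h := (hasStrictFDerivAt_norm_sq v).hasFDerivAt.rpow_const (p := -s / 2 - 1) (Or.inl h0)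
  have h2 := (h.const_mul (-s)).smul (hasFDerivAt_id v)
  have h3 : fderiv ℝ (kgrad s : E → E) v = _ := h2.fderiv
  rw [h3, injective_iff_map_eq_zero]
  intro w hw
  simp only [id, ContinuousLinearMap.add_apply, ContinuousLinearMap.smul_apply,
    ContinuousLinearMap.id_apply, ContinuousLinearMap.smulRight_apply, innerSL_apply_apply,
    smul_eq_mul, nsmul_eq_mul] at hw
  set N := ‖v‖ ^ 2 with hN
  have hq : 0 < N ^ (-s / 2 - 1) := Real.rpow_pos_of_pos hpos _
  have hq' : N ^ (-s / 2 - 1 - 1) * N = N ^ (-s / 2 - 1) := by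
    rw [Real.rpow_sub_one h0 (-s / 2 - 1), div_mul_cancel₀ _ h0]
  have hin := congrArg (fun u => ⟪v, u⟫) hw
  simp only [inner_add_right, inner_smul_right, inner_zero_right, real_inner_self_eq_norm_sq,
    ← hN] at hin
  have hvw : ⟪v, w⟫ = 0 := by
    have : s * (s + 1) * N ^ (-s / 2 - 1) * ⟪v, w⟫ = 0 := by
      rw [← hq'] at hin ⊢
      push_cast at hin
      linarith
    have hne : s * (s + 1) * N ^ (-s / 2 - 1) ≠ 0 := by positivity
    exact (mul_eq_zero.1 this).resolve_left hne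
  rw [hvw] at hw
  simp only [mul_zero, zero_smul, add_zero, smul_eq_zero] at hw
  rcases hw with hw | hw
  · exact absurd hw (mul_ne_zero (neg_ne_zero.2 hs.ne') hq.ne')
  · exact hw

/-- One-sided second order Taylor bound near a point. -/
theorem taylor_lower (φ : E → ℝ) (g : E → E)
    (hφ : ∀ v, v ≠ 0 → HasFDerivAt φ (innerSL ℝ (g v)) v) (hg : ContDiffOn ℝ ∞ g {0}ᶜ)
    {p0 : E} (hp0 : p0 ≠ 0) :
    ∃ L ρ : ℝ, 0 ≤ L ∧ 0 < ρ ∧ ∀ p ∈ ball p0 ρ, ∀ p' ∈ ball p0 ρ,
      φ p + ⟪g p, p' - p⟫ - L * ‖p' - p‖ ^ 2 ≤ φ p' := by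
  have hca : ContDiffAt ℝ 1 g p0 :=
    (hg.contDiffAt (isOpen_compl_singleton.mem_nhds hp0)).of_le (by simp)
  obtain ⟨L, t, ht, hL⟩ := hca.exists_lipschitzOnWith
  obtain ⟨ρ, hρ, hρt⟩ := Metric.mem_nhds_iff.1
    (inter_mem ht (isOpen_compl_singleton.mem_nhds hp0))
  refine ⟨L, ρ, L.2, hρ, fun p hp p' hp' => ?_⟩
  have hseg : segment ℝ p p' ⊆ ball p0 ρ := (convex_ball p0 ρ).segment_subset hp hp'
  have key := (convex_segment p p').norm_image_sub_le_of_norm_hasFDerivWithin_le'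
    (f := φ) (f' := fun x => innerSL ℝ (g x)) (φ := innerSL ℝ (g p)) (C := L * ‖p' - p‖)
    (fun x hx => (hφ x (hρt (hseg hx)).2).hasFDerivWithinAt)
    (fun x hx => by
      rw [← map_sub, innerSL_apply_norm]
      have h1 := hL.dist_le_mul x (hρt (hseg hx)).1 p (hρt hp).1
      rw [dist_eq_norm, dist_eq_norm] at h1
      have h2 : ‖x - p‖ ≤ ‖p' - p‖ := by
        have := dist_add_dist_of_mem_segment hx
        rw [dist_eq_norm, dist_eq_norm, dist_eq_norm, norm_sub_rev p x, norm_sub_rev p p'] at this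
        linarith [norm_nonneg (x - p')]
      exact h1.trans (mul_le_mul_of_nonneg_left h2 L.2))
    (left_mem_segment ℝ p p') (right_mem_segment ℝ p p')
  rw [Real.norm_eq_abs, innerSL_apply_apply] at key
  have := (abs_le.1 key).1
  nlinarith

theorem eventually_smul_ne {V : Type*} [NormedAddCommGroup V] [NormedSpace ℝ V] (A : V →L[ℝ] V) :
    ∀ᶠ K : ℝ in atTop, ∀ v, K • v = A v → v = 0 := by
  filter_upwards [eventually_gt_atTop ‖A‖] with K hK v hv
  have h1 : ‖K • v‖ ≤ ‖A‖ * ‖v‖ := hv ▸ A.le_opNorm v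
  rw [norm_smul, Real.norm_eq_abs, abs_of_nonneg ((norm_nonneg A).trans hK.le)] at h1
  by_contra h
  have := norm_pos_iff.2 h
  nlinarith

theorem linalg_eventually [FiniteDimensional ℝ E] (H1 H2 H3 H4 : E →L[ℝ] E)
    (h1 : Function.Injective H1) (h4 : Function.Injective H4) :
    ∀ᶠ K : ℝ in atTop, ∀ dx dy dz : E, H1 (dx - dy) + H2 (dx - dz) + K • dx = 0 →
      H3 (dz - dx) + H4 (dz - dy) + K • dz = 0 →
      (dx = 0 ∨ dy = 0 ∨ dz = 0) → dx = 0 ∧ dy = 0 ∧ dz = 0 := by
  let e1 := H1.toContinuousLinearEquivOfDetNeZero (det_ne_zero_of_injective _ h1)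
  let e4 := H4.toContinuousLinearEquivOfDetNeZero (det_ne_zero_of_injective _ h4)
  have he1 : ∀ v, e1.symm (H1 v) = v := fun v => e1.symm_apply_apply v
  have he4 : ∀ v, e4.symm (H4 v) = v := fun v => e4.symm_apply_apply v
  let A : E × E →L[ℝ] E × E :=
    (-(H1 ∘L ContinuousLinearMap.fst ℝ E E + H2 ∘L (ContinuousLinearMap.fst ℝ E E -
      ContinuousLinearMap.snd ℝ E E))).prod
    (-(H3 ∘L (ContinuousLinearMap.snd ℝ E E - ContinuousLinearMap.fst ℝ E E) +
      H4 ∘L ContinuousLinearMap.snd ℝ E E))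
  let B : E →L[ℝ] E := -(H3 + H4 + H4 ∘L (e1.symm : E →L[ℝ] E) ∘L H2)
  let C : E →L[ℝ] E := -(H1 + H2 + H1 ∘L (e4.symm : E →L[ℝ] E) ∘L H3)
  filter_upwards [eventually_smul_ne A, eventually_smul_ne B, eventually_smul_ne C]
    with K hA hB hC dx dy dz e1' e2' hor
  rcases hor with h | h | h
  · subst h
    have hdy : dy = -(e1.symm (H2 dz)) := by
      have : H1 dy = -(H2 dz) := by
        simp only [zero_sub, map_neg, smul_zero, add_zero] at e1'
        exact eq_neg_of_add_eq_zero_left (by rw [← neg_eq_zero, neg_add]; exact e1')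
      rw [← he1 dy, this, map_neg]
    have hz : dz = 0 := by
      apply hB
      simp only [B, ContinuousLinearMap.neg_apply, ContinuousLinearMap.add_apply,
        ContinuousLinearMap.comp_apply, ContinuousLinearEquiv.coe_coe]
      rw [hdy] at e2'
      simp only [sub_zero, sub_neg_eq_add, map_add] at e2'
      rw [eq_neg_iff_add_eq_zero, ← e2']
      abel
    subst hz
    refine ⟨rfl, ?_, rfl⟩
    rw [hdy]; simp
  · subst h
    have := hA (dx, dz) (by
      simp only [A, ContinuousLinearMap.prod_apply, ContinuousLinearMap.neg_apply,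
        ContinuousLinearMap.add_apply, ContinuousLinearMap.comp_apply,
        ContinuousLinearMap.sub_apply, ContinuousLinearMap.coe_fst',
        ContinuousLinearMap.coe_snd', Prod.smul_mk, Prod.mk.injEq]
      simp only [sub_zero] at e1' e2'
      constructor
      · rw [eq_neg_iff_add_eq_zero, ← e1']; abel
      · rw [eq_neg_iff_add_eq_zero, ← e2']; abel)
    simp only [Prod.mk_eq_zero] at this
    exact ⟨this.1, rfl, this.2⟩
  · subst h
    have hdy : dy = -(e4.symm (H3 dx)) := by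
      have : H4 dy = -(H3 dx) := by
        simp only [zero_sub, map_neg, smul_zero, add_zero] at e2'
        exact eq_neg_of_add_eq_zero_left (by rw [← neg_eq_zero, neg_add, add_comm]; exact e2')
      rw [← he4 dy, this, map_neg]
    have hx : dx = 0 := by
      apply hC
      simp only [C, ContinuousLinearMap.neg_apply, ContinuousLinearMap.add_apply,
        ContinuousLinearMap.comp_apply, ContinuousLinearEquiv.coe_coe]
      rw [hdy] at e1'
      simp only [sub_zero, sub_neg_eq_add, map_add] at e1'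
      rw [eq_neg_iff_add_eq_zero, ← e1']
      abel
    subst hx
    refine ⟨rfl, ?_, rfl⟩
    rw [hdy]; simp

end Crest.Agent.R130
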