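import Mathlib
import Crest.Agent.R130.Kernel

/-! One branch of the construction: local diffeomorphisms `Y`, `Z` and potentials with equality
exactly on the graph `(a, Y a, Z a)`. -/

set_option autoImplicit false
set_option linter.unusedSectionVars false
set_option linter.deprecated false
set_option linter.unusedSimpArgs false

namespace Crest.Agent.R130

open Set Filter Topology Metric
open scoped ContDiff RealInnerProductSpace

variable {E : Type*} [NormedAddCommGroup E] [InnerProductSpace ℝ E] [FiniteDimensional ℝ E]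

/-- Existence of the critical-point graph. -/
theorem exists_graph (g : E → E) (hg : ContDiffOn ℝ ∞ g {0}ᶜ)
    (hinj : ∀ v, v ≠ 0 → Function.Injective (fderiv ℝ g v)) (hodd : ∀ v, g (-v) = -g v)
    (b : E) (hb : b ≠ 0) :
    ∀ᶠ K : ℝ in atTop, ∃ eY eZ : OpenPartialHomeomorph E E,
      (0 : E) ∈ eY.source ∧ (0 : E) ∈ eZ.source ∧
      ContDiffOn ℝ ∞ eY eY.source ∧ ContDiffOn ℝ ∞ eY.symm eY.target ∧
      ContDiffOn ℝ ∞ eZ eZ.source ∧ ContDiffOn ℝ ∞ eZ.symm eZ.target ∧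
      eY 0 = b ∧ eZ 0 = -b ∧
      ∀ x ∈ eY.source, g (x - eY x) + g (x - eZ x) + K • x = 0 ∧
        g (eZ x - x) + g (eZ x - eY x) + K • (eZ x + b) = g (-b) + g (-b - b) := by
  have hb1 : (0 : E) - b ≠ 0 := by simpa using hb
  have hb2 : (0 : E) - (-b) ≠ 0 := by simpa using hb
  have hb3 : -b - (0 : E) ≠ 0 := by simpa using hb
  have hb4 : -b - b ≠ 0 := by
    intro h
    apply hb
    have : (2 : ℝ) • b = 0 := by rw [two_smul, ← neg_eq_zero, neg_add, ← sub_eq_add_neg, h]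
    simpa using this
  have hgd : ∀ v, v ≠ 0 → HasFDerivAt g (fderiv ℝ g v) v := fun v hv =>
    ((hg.contDiffAt (isOpen_compl_singleton.mem_nhds hv)).differentiableAt (by simp)).hasFDerivAt
  filter_upwards [linalg_eventually (fderiv ℝ g (0 - b)) (fderiv ℝ g (0 - (-b)))
    (fderiv ℝ g (-b - 0)) (fderiv ℝ g (-b - b)) (hinj _ hb1) (hinj _ hb4)] with K hK
  set H1 := fderiv ℝ g (0 - b)
  set H2 := fderiv ℝ g (0 - (-b))
  set H3 := fderiv ℝ g (-b - 0)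
  set H4 := fderiv ℝ g (-b - b)
  let l : E := g (-b) + g (-b - b)
  let F1 : E × E × E → E := fun p => g (p.1 - p.2.1) + g (p.1 - p.2.2) + K • p.1
  let F2 : E × E × E → E := fun p => g (p.2.2 - p.1) + g (p.2.2 - p.2.1) + K • (p.2.2 + b) - l
  let G : E × E × E → E × E × E := fun p => (p.1, F1 p, F2 p)
  let U : Set (E × E × E) := {p | p.1 - p.2.1 ≠ 0 ∧ p.1 - p.2.2 ≠ 0 ∧ p.2.2 - p.1 ≠ 0 ∧
    p.2.2 - p.2.1 ≠ 0}
  have hU : IsOpen U := by
    refine (isOpen_ne_fun (by fun_prop) continuous_const).inter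
      ((isOpen_ne_fun (by fun_prop) continuous_const).inter
      ((isOpen_ne_fun (by fun_prop) continuous_const).inter
      (isOpen_ne_fun (by fun_prop) continuous_const)))
  let P0 : E × E × E := (0, b, -b)
  have hP0 : P0 ∈ U := ⟨hb1, hb2, hb3, hb4⟩
  have hGs : ContDiffOn ℝ ∞ G U := by
    have c1 : ContDiffOn ℝ ∞ (fun p : E × E × E => g (p.1 - p.2.1)) U :=
      hg.comp (by fun_prop) (fun p hp => hp.1)
    have c2 : ContDiffOn ℝ ∞ (fun p : E × E × E => g (p.1 - p.2.2)) U :=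
      hg.comp (by fun_prop) (fun p hp => hp.2.1)
    have c3 : ContDiffOn ℝ ∞ (fun p : E × E × E => g (p.2.2 - p.1)) U :=
      hg.comp (by fun_prop) (fun p hp => hp.2.2.1)
    have c4 : ContDiffOn ℝ ∞ (fun p : E × E × E => g (p.2.2 - p.2.1)) U :=
      hg.comp (by fun_prop) (fun p hp => hp.2.2.2)
    refine contDiffOn_fst.prodMk (ContDiffOn.prodMk ?_ ?_)
    · exact (c1.add c2).add (by fun_prop)
    · exact ((c3.add c4).add (by fun_prop)).sub contDiffOn_const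
  -- derivative at the base point
  let π1 : E × E × E →L[ℝ] E := ContinuousLinearMap.fst ℝ E (E × E)
  let π2 : E × E × E →L[ℝ] E :=
    ContinuousLinearMap.fst ℝ E E ∘L ContinuousLinearMap.snd ℝ E (E × E)
  let π3 : E × E × E →L[ℝ] E :=
    ContinuousLinearMap.snd ℝ E E ∘L ContinuousLinearMap.snd ℝ E (E × E)
  let D1 : E × E × E →L[ℝ] E := H1 ∘L (π1 - π2) + H2 ∘L (π1 - π3) + K • π1
  let D2 : E × E × E →L[ℝ] E := H3 ∘L (π3 - π1) + H4 ∘L (π3 - π2) + K • π3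
  have hD1 : HasFDerivAt F1 D1 P0 := by
    have a1 : HasFDerivAt (fun p : E × E × E => g (p.1 - p.2.1)) (H1 ∘L (π1 - π2)) P0 :=
      HasFDerivAt.comp P0 (f := fun p : E × E × E => p.1 - p.2.1) (hgd _ hb1)
        (π1 - π2).hasFDerivAt
    have a2 : HasFDerivAt (fun p : E × E × E => g (p.1 - p.2.2)) (H2 ∘L (π1 - π3)) P0 :=
      HasFDerivAt.comp P0 (f := fun p : E × E × E => p.1 - p.2.2) (hgd _ hb2)
        (π1 - π3).hasFDerivAt
    exact (a1.add a2).add (K • π1).hasFDerivAt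
  have hD2 : HasFDerivAt F2 D2 P0 := by
    have a1 : HasFDerivAt (fun p : E × E × E => g (p.2.2 - p.1)) (H3 ∘L (π3 - π1)) P0 :=
      HasFDerivAt.comp P0 (f := fun p : E × E × E => p.2.2 - p.1) (hgd _ hb3)
        (π3 - π1).hasFDerivAt
    have a2 : HasFDerivAt (fun p : E × E × E => g (p.2.2 - p.2.1)) (H4 ∘L (π3 - π2)) P0 :=
      HasFDerivAt.comp P0 (f := fun p : E × E × E => p.2.2 - p.2.1) (hgd _ hb4)
        (π3 - π2).hasFDerivAt
    have a3 : HasFDerivAt (fun p : E × E × E => K • (p.2.2 + b)) (K • π3) P0 :=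
      (π3.hasFDerivAt.add_const b).const_smul K
    exact ((a1.add a2).add a3).sub_const l
  have hker : ∀ w : E × E × E, D1 w = 0 → D2 w = 0 → (w.1 = 0 ∨ w.2.1 = 0 ∨ w.2.2 = 0) →
      w = 0 := by
    intro w h1 h2 hor
    obtain ⟨a, b', c⟩ := hK w.1 w.2.1 w.2.2 h1 h2 hor
    exact Prod.ext a (Prod.ext b' c)
  have hDG : HasFDerivAt G (π1.prod (D1.prod D2)) P0 :=
    π1.hasFDerivAt.prodMk (hD1.prodMk hD2)
  have hGinj : Function.Injective (fderiv ℝ G P0) := by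
    rw [hDG.fderiv, injective_iff_map_eq_zero]
    intro w hw
    simp only [ContinuousLinearMap.prod_apply, Prod.mk_eq_zero] at hw
    exact hker w hw.2.1 hw.2.2 (Or.inl hw.1)
  obtain ⟨e, he, heP, -, hes⟩ := exists_localDiffeo G U hU P0 hP0 hGs hGinj
  have hGP0 : G P0 = (0, 0, 0) := by
    simp only [G, F1, F2, P0, l]
    simp [hodd]
  let ι : E → E × E × E := fun x => (x, 0, 0)
  let O : Set E := ι ⁻¹' e.target
  have hO : IsOpen O := e.open_target.preimage (by fun_prop)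
  have h0O : (0 : E) ∈ O := by
    change ((0, 0, 0) : E × E × E) ∈ e.target
    rw [← hGP0, ← he]; exact e.map_source heP
  let σ : E → E × E × E := fun x => e.symm (ι x)
  have hσs : ContDiffOn ℝ ∞ σ O := hes.comp (by fun_prop) (fun x hx => hx)
  have hσ0 : σ 0 = P0 := by
    change e.symm (0, 0, 0) = P0
    rw [← hGP0, ← he]; exact e.left_inv heP
  have hGσ : ∀ x ∈ O, G (σ x) = ι x := fun x hx => by
    rw [← he]; exact e.right_inv hx
  have hσd : HasFDerivAt σ (fderiv ℝ σ 0) 0 :=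
    ((hσs.contDiffAt (hO.mem_nhds h0O)).differentiableAt (by simp)).hasFDerivAt
  have hchain : ∀ v, (fderiv ℝ σ 0 v).1 = v ∧ D1 (fderiv ℝ σ 0 v) = 0 ∧
      D2 (fderiv ℝ σ 0 v) = 0 := by
    have h1 : HasFDerivAt (G ∘ σ) ((π1.prod (D1.prod D2)) ∘L fderiv ℝ σ 0) 0 :=
      HasFDerivAt.comp 0 (hσ0 ▸ hDG) hσd
    have h2 : HasFDerivAt ι ((ContinuousLinearMap.id ℝ E).prod 0) 0 :=
      (hasFDerivAt_id (0 : E)).prodMk (hasFDerivAt_const ((0, 0) : E × E) (0 : E))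
    have h3 : (G ∘ σ) =ᶠ[𝓝 0] ι := by
      filter_upwards [hO.mem_nhds h0O] with x hx
      exact hGσ x hx
    have h4 := (h1.congr_of_eventuallyEq h3.symm).unique h2
    intro v
    have h5 := congrArg (fun A : E →L[ℝ] E × E × E => A v) h4
    simp only [ContinuousLinearMap.comp_apply, ContinuousLinearMap.prod_apply,
      ContinuousLinearMap.id_apply, ContinuousLinearMap.zero_apply, Prod.mk.injEq,
      Prod.mk_eq_zero] at h5
    exact ⟨h5.1, h5.2.1, h5.2.2⟩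
  have hYd : HasFDerivAt (fun x => (σ x).2.1) (π2 ∘L fderiv ℝ σ 0) 0 :=
    π2.hasFDerivAt.comp 0 hσd
  have hZd : HasFDerivAt (fun x => (σ x).2.2) (π3 ∘L fderiv ℝ σ 0) 0 :=
    π3.hasFDerivAt.comp 0 hσd
  have hYinj : Function.Injective (fderiv ℝ (fun x => (σ x).2.1) 0) := by
    rw [hYd.fderiv, injective_iff_map_eq_zero]
    intro v hv
    obtain ⟨c1, c2, c3⟩ := hchain v
    have := hker _ c2 c3 (Or.inr (Or.inl hv))
    rw [← c1, this]; rfl
  have hZinj : Function.Injective (fderiv ℝ (fun x => (σ x).2.2) 0) := by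
    rw [hZd.fderiv, injective_iff_map_eq_zero]
    intro v hv
    obtain ⟨c1, c2, c3⟩ := hchain v
    have := hker _ c2 c3 (Or.inr (Or.inr hv))
    rw [← c1, this]; rfl
  have hYs : ContDiffOn ℝ ∞ (fun x => (σ x).2.1) O := hσs.snd.fst
  have hZs : ContDiffOn ℝ ∞ (fun x => (σ x).2.2) O := hσs.snd.snd
  obtain ⟨eY, heY, hY0, hYO, hYsm⟩ := exists_localDiffeo _ O hO 0 h0O hYs hYinj
  obtain ⟨eZ, heZ, hZ0, hZO, hZsm⟩ := exists_localDiffeo _ O hO 0 h0O hZs hZinj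
  refine ⟨eY, eZ, hY0, hZ0, heY ▸ hYs.mono hYO, hYsm, heZ ▸ hZs.mono hZO, hZsm, ?_, ?_, ?_⟩
  · rw [heY]; simp only [hσ0, P0]
  · rw [heZ]; simp only [hσ0, P0]
  · intro x hx
    have h := hGσ x (hYO hx)
    simp only [G, ι, Prod.mk.injEq, F1, F2] at h
    obtain ⟨h1, h2, h3⟩ := h
    rw [heY, heZ]
    rw [h1] at h2 h3
    exact ⟨h2, sub_eq_zero.1 h3⟩

/-- The branch lemma. -/
theorem exists_branch (φ : E → ℝ) (g : E → E)
    (hφ : ∀ v, v ≠ 0 → HasFDerivAt φ (innerSL ℝ (g v)) v) (hg : ContDiffOn ℝ ∞ g {0}ᶜ)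
    (hinj : ∀ v, v ≠ 0 → Function.Injective (fderiv ℝ g v)) (hodd : ∀ v, g (-v) = -g v)
    (heven : ∀ v, φ (-v) = φ v) (b : E) (hb : b ≠ 0) :
    ∀ᶠ K : ℝ in atTop, ∀ a0 β : ℝ, ∃ (eY eZ : OpenPartialHomeomorph E E) (wB wC : E → ℝ) (r : ℝ),
      0 < r ∧ ball (0 : E) r ⊆ eY.source ∧ ball (0 : E) r ⊆ eZ.source ∧
      ContDiffOn ℝ ∞ eY eY.source ∧ ContDiffOn ℝ ∞ eY.symm eY.target ∧
      ContDiffOn ℝ ∞ eZ eZ.source ∧ ContDiffOn ℝ ∞ eZ.symm eZ.target ∧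
      eY 0 = b ∧ eZ 0 = -b ∧ ContinuousOn wB (ball 0 r) ∧ ContinuousOn wC (ball 0 r) ∧
      wC 0 = β ∧
      (∀ a ∈ ball (0 : E) r, a - eY a ≠ 0 ∧ a - eZ a ≠ 0 ∧ eY a - eZ a ≠ 0) ∧
      (∀ a, (a0 - K / 2 * ‖a‖ ^ 2) + wB a + wC a = φ (a - eY a) + φ (a - eZ a) + φ (eY a - eZ a)) ∧
      ∀ a ∈ ball (0 : E) r, ∀ a' ∈ ball (0 : E) r, ∀ a'' ∈ ball (0 : E) r,
        (a0 - K / 2 * ‖a‖ ^ 2) + wB a' + wC a'' + ‖a - a'‖ ^ 2 + ‖eZ a'' - eZ a'‖ ^ 2 ≤
          φ (a - eY a') + φ (a - eZ a'') + φ (eY a' - eZ a'') := by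
  have hb4 : -b - b ≠ 0 := by
    intro h
    apply hb
    have : (2 : ℝ) • b = 0 := by rw [two_smul, ← neg_eq_zero, neg_add, ← sub_eq_add_neg, h]
    simpa using this
  obtain ⟨L1, ρ1, hL1, hρ1, hT1⟩ := taylor_lower φ g hφ hg (neg_ne_zero.2 hb)
  obtain ⟨L2, ρ2, hL2, hρ2, hT2⟩ := taylor_lower φ g hφ hg hb
  obtain ⟨L3, ρ3, hL3, hρ3, hT3⟩ := taylor_lower φ g hφ hg hb4
  filter_upwards [exists_graph g hg hinj hodd b hb,
    eventually_ge_atTop (2 * (L1 + 2 * L2 + L3 + 1))] with K hK hKL a0 β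
  obtain ⟨eY, eZ, hY0, hZ0, hY1, hY2, hZ1, hZ2, hYb, hZb, hcrit⟩ := hK
  set l : E := g (-b) + g (-b - b) with hl
  let ρ := min (min ρ1 (min ρ2 ρ3)) ‖b‖
  have hρ : 0 < ρ := lt_min (lt_min hρ1 (lt_min hρ2 hρ3)) (norm_pos_iff.2 hb)
  have hρa : ρ ≤ ρ1 := (min_le_left _ _).trans (min_le_left _ _)
  have hρb : ρ ≤ ρ2 := (min_le_left _ _).trans ((min_le_right _ _).trans (min_le_left _ _))
  have hρc : ρ ≤ ρ3 := (min_le_left _ _).trans ((min_le_right _ _).trans (min_le_right _ _))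
  have hρd : ρ ≤ ‖b‖ := min_le_right _ _
  have hev : ∀ᶠ a in 𝓝 (0 : E), a ∈ eY.source ∧ a ∈ eZ.source ∧ ‖a‖ < ρ / 2 ∧
      ‖eY a - b‖ < ρ / 2 ∧ ‖eZ a + b‖ < ρ / 2 := by
    have c1 : ContinuousAt (fun a : E => ‖a‖) 0 := continuous_norm.continuousAt
    have c2 : ContinuousAt (fun a => ‖eY a - b‖) 0 :=
      ((eY.continuousAt hY0).sub continuousAt_const).norm
    have c3 : ContinuousAt (fun a => ‖eZ a + b‖) 0 :=
      ((eZ.continuousAt hZ0).add continuousAt_const).norm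
    have d1 : ∀ᶠ a in 𝓝 (0 : E), a ∈ eY.source := eY.open_source.mem_nhds hY0
    have d2 : ∀ᶠ a in 𝓝 (0 : E), a ∈ eZ.source := eZ.open_source.mem_nhds hZ0
    refine d1.and (d2.and
      ((c1.eventually (gt_mem_nhds ?_)).and ((c2.eventually (gt_mem_nhds ?_)).and
      (c3.eventually (gt_mem_nhds ?_)))))
    · simpa using hρ
    · simpa [hYb] using hρ
    · simpa [hZb] using hρ
  obtain ⟨r, hr, hball⟩ := Metric.mem_nhds_iff.1 hev
  have hm1 : ∀ a ∈ ball (0 : E) r, ∀ a' ∈ ball (0 : E) r, ‖a - eY a' - -b‖ < ρ := by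
    intro a ha a' ha'
    have h1 := (hball ha).2.2.1
    have h2 := (hball ha').2.2.2.1
    calc ‖a - eY a' - -b‖ = ‖a - (eY a' - b)‖ := by congr 1; abel
      _ ≤ ‖a‖ + ‖eY a' - b‖ := norm_sub_le _ _
      _ < ρ := by linarith
  have hm2 : ∀ a ∈ ball (0 : E) r, ∀ a' ∈ ball (0 : E) r, ‖a - eZ a' - b‖ < ρ := by
    intro a ha a' ha'
    have h1 := (hball ha).2.2.1
    have h2 := (hball ha').2.2.2.2
    calc ‖a - eZ a' - b‖ = ‖a - (eZ a' + b)‖ := by congr 1; abel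
      _ ≤ ‖a‖ + ‖eZ a' + b‖ := norm_sub_le _ _
      _ < ρ := by linarith
  have hm3 : ∀ a ∈ ball (0 : E) r, ∀ a' ∈ ball (0 : E) r, ‖eZ a - eY a' - (-b - b)‖ < ρ := by
    intro a ha a' ha'
    have h1 := (hball ha).2.2.2.2
    have h2 := (hball ha').2.2.2.1
    calc ‖eZ a - eY a' - (-b - b)‖ = ‖(eZ a + b) - (eY a' - b)‖ := by congr 1; abel
      _ ≤ ‖eZ a + b‖ + ‖eY a' - b‖ := norm_sub_le _ _
      _ < ρ := by linarith
  have hne : ∀ a ∈ ball (0 : E) r, a - eY a ≠ 0 ∧ a - eZ a ≠ 0 ∧ eY a - eZ a ≠ 0 := by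
    intro a ha
    refine ⟨fun h => ?_, fun h => ?_, fun h => ?_⟩
    · have := hm1 a ha a ha
      rw [h] at this
      simp only [zero_sub, neg_neg] at this
      linarith
    · have := hm2 a ha a ha
      rw [h] at this
      simp only [zero_sub, norm_neg] at this
      linarith
    · have := hm3 a ha a ha
      rw [← neg_sub (eY a) (eZ a), h] at this
      have h2 : ‖-(0 : E) - (-b - b)‖ = 2 * ‖b‖ := by
        rw [show -(0 : E) - (-b - b) = (2 : ℝ) • b by rw [two_smul]; abel, norm_smul]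
        simp
      linarith [norm_nonneg b]
  let wC : E → ℝ := fun a => β + ⟪l, eZ a + b⟫ - K / 2 * ‖eZ a + b‖ ^ 2
  let wB : E → ℝ := fun a => φ (a - eY a) + φ (a - eZ a) + φ (eY a - eZ a) -
    (a0 - K / 2 * ‖a‖ ^ 2) - wC a
  have hYc : ContinuousOn eY (ball 0 r) := eY.continuousOn.mono fun a ha => (hball ha).1
  have hZc : ContinuousOn eZ (ball 0 r) := eZ.continuousOn.mono fun a ha => (hball ha).2.1
  have hφc : ContinuousOn φ {0}ᶜ := fun v hv => (hφ v hv).continuousAt.continuousWithinAt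
  have hwC : ContinuousOn wC (ball 0 r) :=
    (continuousOn_const.add (continuousOn_const.inner (hZc.add continuousOn_const))).sub
      (continuousOn_const.mul ((hZc.add continuousOn_const).norm.pow 2))
  have hwB : ContinuousOn wB (ball 0 r) := by
    refine ((((hφc.comp (continuousOn_id.sub hYc) fun a ha => (hne a ha).1).add
      (hφc.comp (continuousOn_id.sub hZc) fun a ha => (hne a ha).2.1)).add
      (hφc.comp (hYc.sub hZc) fun a ha => (hne a ha).2.2)).sub ?_).sub hwC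
    fun_prop
  refine ⟨eY, eZ, wB, wC, r, hr, fun a ha => (hball ha).1, fun a ha => (hball ha).2.1,
    hY1, hY2, hZ1, hZ2, hYb, hZb, hwB, hwC, by simp [wC, hZb], hne, fun a => by
      simp only [wB]; ring, ?_⟩
  intro a ha a' ha' a'' ha''
  obtain ⟨E1, E2⟩ := hcrit a' (hball ha').1
  have T1 := hT1 (a' - eY a') (mem_ball_iff_norm.2 ((hm1 a' ha' a' ha').trans_le hρa))
    (a - eY a') (mem_ball_iff_norm.2 ((hm1 a ha a' ha').trans_le hρa))
  have T2 := hT2 (a' - eZ a') (mem_ball_iff_norm.2 ((hm2 a' ha' a' ha').trans_le hρb))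
    (a - eZ a'') (mem_ball_iff_norm.2 ((hm2 a ha a'' ha'').trans_le hρb))
  have T3 := hT3 (eZ a' - eY a') (mem_ball_iff_norm.2 ((hm3 a' ha' a' ha').trans_le hρc))
    (eZ a'' - eY a') (mem_ball_iff_norm.2 ((hm3 a'' ha'' a' ha').trans_le hρc))
  set dx := a - a' with hdx
  set dz := eZ a'' - eZ a' with hdz
  have e1 : a - eY a' - (a' - eY a') = dx := by rw [hdx]; abel
  have e2 : a - eZ a'' - (a' - eZ a') = dx - dz := by rw [hdx, hdz]; abel
  have e3 : eZ a'' - eY a' - (eZ a' - eY a') = dz := by rw [hdz]; abel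
  rw [e1] at T1
  rw [e2] at T2
  rw [e3] at T3
  have hg2 : g (eZ a' - a') = -g (a' - eZ a') := by rw [← hodd, neg_sub]
  rw [hg2] at E2
  have I1 := congrArg (fun u => ⟪u, dx⟫) E1
  have I2 := congrArg (fun u => ⟪u, dz⟫) E2
  simp only [inner_add_left, inner_neg_left, real_inner_smul_left, inner_zero_left] at I1 I2
  have N1 : ‖a‖ ^ 2 = ‖a'‖ ^ 2 + 2 * ⟪a', dx⟫ + ‖dx‖ ^ 2 := by
    rw [← norm_add_sq_real, hdx]; congr 2; abel
  have N2 : ‖eZ a'' + b‖ ^ 2 = ‖eZ a' + b‖ ^ 2 + 2 * ⟪eZ a' + b, dz⟫ + ‖dz‖ ^ 2 := by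
    rw [← norm_add_sq_real, hdz]; congr 2; abel
  have N3 : ⟪l, eZ a'' + b⟫ = ⟪l, eZ a' + b⟫ + ⟪l, dz⟫ := by
    rw [← inner_add_right, hdz]; congr 1; abel
  have N4 : ‖dx - dz‖ ^ 2 ≤ 2 * ‖dx‖ ^ 2 + 2 * ‖dz‖ ^ 2 := by
    have := parallelogram_law_with_norm ℝ dx dz
    nlinarith [sq_nonneg ‖dx + dz‖]
  have hev1 : φ (eY a' - eZ a'') = φ (eZ a'' - eY a') := by rw [← heven, neg_sub]
  have hev2 : φ (eY a' - eZ a') = φ (eZ a' - eY a') := by rw [← heven, neg_sub]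
  rw [inner_sub_right] at T2
  rw [inner_add_left] at N2
  simp only [wB, wC]
  rw [hev1, hev2, N1, N2, N3]
  have hx2 := sq_nonneg ‖dx‖
  have hz2 := sq_nonneg ‖dz‖
  have M1 : L2 * ‖dx - dz‖ ^ 2 ≤ L2 * (2 * ‖dx‖ ^ 2 + 2 * ‖dz‖ ^ 2) :=
    mul_le_mul_of_nonneg_left N4 hL2
  have M2 : (L1 + 2 * L2 + 1) * ‖dx‖ ^ 2 ≤ K / 2 * ‖dx‖ ^ 2 :=
    mul_le_mul_of_nonneg_right (by linarith) hx2
  have M3 : (L3 + 2 * L2 + 1) * ‖dz‖ ^ 2 ≤ K / 2 * ‖dz‖ ^ 2 :=
    mul_le_mul_of_nonneg_right (by linarith) hz2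
  linarith

end Crest.Agent.R130
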