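import Mathlib
import Crest.Prelude.Def_MultiMarginal
import Crest.Agent.R130.Branch
import Crest.Agent.R130.Abstract

/-! The five blobs and their potentials. -/

set_option autoImplicit false
set_option linter.unusedSectionVars false

namespace Crest.Agent.R130

open Set Filter Topology Metric
open scoped ContDiff RealInnerProductSpace ENNReal
open Crest.AnalysisR.OT

section cost

variable {E : Type*} [NormedAddCommGroup E]

theorem pairCost_comm (s : ℝ) (x y : E) : pairCost s x y = pairCost s y x := by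
  unfold pairCost; rw [norm_sub_rev]

theorem pairCost_eq (s : ℝ) {x y : E} (h : x - y ≠ 0) :
    pairCost s x y = ENNReal.ofReal (kphi s (x - y)) := by
  unfold pairCost kphi
  exact ENNReal.ofReal_rpow_of_pos (norm_pos_iff.2 h)

theorem pairCost_self {s : ℝ} (hs : 0 < s) (x : E) : pairCost s x x = ⊤ := by
  unfold pairCost
  simp [ENNReal.zero_rpow_of_neg (neg_lt_zero.2 hs)]

theorem continuous_tripleCost (s : ℝ) : Continuous (tripleCost s : E × E × E → ℝ≥0∞) := by
  have h : Continuous fun p : E × E => pairCost s p.1 p.2 := by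
    unfold pairCost
    exact ENNReal.continuous_rpow_const.comp (ENNReal.continuous_ofReal.comp (by fun_prop))
  unfold tripleCost
  exact ((h.comp (f := fun p : E × E × E => (p.1, p.2.1)) (by fun_prop)).add
    (h.comp (f := fun p : E × E × E => (p.1, p.2.2)) (by fun_prop))).add
    (h.comp (f := fun p : E × E × E => (p.2.1, p.2.2)) (by fun_prop))

theorem kphi_nonneg (s : ℝ) (v : E) : 0 ≤ kphi s v := Real.rpow_nonneg (norm_nonneg _) _

theorem tripleCost_eq (s : ℝ) {x y z : E} (h1 : x - y ≠ 0) (h2 : x - z ≠ 0) (h3 : y - z ≠ 0) :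
    tripleCost s (x, y, z) =
      ENNReal.ofReal (kphi s (x - y) + kphi s (x - z) + kphi s (y - z)) := by
  unfold tripleCost
  rw [ENNReal.ofReal_add (add_nonneg (kphi_nonneg _ _) (kphi_nonneg _ _)) (kphi_nonneg _ _),
    ENNReal.ofReal_add (kphi_nonneg _ _) (kphi_nonneg _ _), pairCost_eq s h1, pairCost_eq s h2,
    pairCost_eq s h3]

theorem tripleCost_swap12 (s : ℝ) (x y z : E) :
    tripleCost s (x, y, z) = tripleCost s (y, x, z) := by
  simp only [tripleCost, pairCost_comm s x y]; ring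

theorem tripleCost_swap23 (s : ℝ) (x y z : E) :
    tripleCost s (x, y, z) = tripleCost s (x, z, y) := by
  simp only [tripleCost, pairCost_comm s y z]; ring

end cost

/-- Squared distances between the centres. -/
def sqTab : Fin 5 → Fin 5 → ℝ :=
  ![![0, 1, 1, 1, 1], ![1, 0, 4, 2, 2], ![1, 4, 0, 2, 2], ![1, 2, 2, 0, 4], ![1, 2, 2, 4, 0]]

theorem sqTab_pos (i j : Fin 5) (h : i ≠ j) : 0 < sqTab i j := by
  fin_cases i <;> fin_cases j <;> simp_all [sqTab]

theorem center_gap {s : ℝ} (hs : 0 < s) (i j k : Fin 5) (hij : i ≠ j) (hik : i ≠ k) (hjk : j ≠ k)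
    (hg : ¬ good i j k) :
    let β : ℝ := (4 : ℝ) ^ (-s / 2) / 2
    let v : Fin 5 → ℝ := ![2, β, β, β, β]
    v i + v j + v k < sqTab i j ^ (-s / 2) + sqTab i k ^ (-s / 2) + sqTab j k ^ (-s / 2) := by
  intro β v
  have hq : (0 : ℝ) < 4 ^ (-s / 2) := by positivity
  have hw : (4 : ℝ) ^ (-s / 2) < 2 ^ (-s / 2) :=
    Real.rpow_lt_rpow_of_neg (by norm_num) (by norm_num) (by linarith)
  fin_cases i <;> fin_cases j <;> fin_cases k <;>
    first
      | exact absurd rfl hij
      | exact absurd rfl hik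
      | exact absurd rfl hjk
      | exact absurd (by decide) hg
      | (simp [sqTab, v, β]; linarith)

variable {E : Type*} [NormedAddCommGroup E] [InnerProductSpace ℝ E] [FiniteDimensional ℝ E]

theorem center_dist (b1 b2 : E) (h1 : ‖b1‖ = 1) (h2 : ‖b2‖ = 1) (h12 : ⟪b1, b2⟫ = 0)
    (i j : Fin 5) :
    ‖(![0, b1, -b1, b2, -b2] : Fin 5 → E) i - (![0, b1, -b1, b2, -b2] : Fin 5 → E) j‖ ^ 2 =
      sqTab i j := by
  have h21 : ⟪b2, b1⟫ = 0 := by rw [real_inner_comm]; exact h12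
  rw [norm_sub_sq_real]
  fin_cases i <;> fin_cases j <;> simp [sqTab, h1, h2, h12, h21] <;> norm_num

theorem exists_blobs {s : ℝ} (hs : 0 < s) (b1 b2 : E) (h1 : ‖b1‖ = 1) (h2 : ‖b2‖ = 1)
    (h12 : ⟪b1, b2⟫ = 0) :
    ∃ (e : Fin 5 → OpenPartialHomeomorph E E) (w : Fin 5 → E → ℝ) (r : ℝ), 0 < r ∧
      (∀ i, closedBall 0 r ⊆ (e i).source) ∧ (∀ i, ContDiffOn ℝ ∞ (e i) (e i).source) ∧
      (∀ i, ContDiffOn ℝ ∞ (e i).symm (e i).target) ∧ (∀ x, e 0 x = x) ∧
      (∀ i, ContinuousOn (w i) (closedBall 0 r)) ∧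
      (∀ i j, i ≠ j → ∀ a ∈ closedBall (0 : E) r, ∀ a' ∈ closedBall (0 : E) r,
        e i a ≠ e j a') ∧
      (∀ i j k, ∀ a ∈ closedBall (0 : E) r, ∀ a' ∈ closedBall (0 : E) r,
        ∀ a'' ∈ closedBall (0 : E) r,
        ENNReal.ofReal (w i a) + ENNReal.ofReal (w j a') + ENNReal.ofReal (w k a'') ≤
          tripleCost s (e i a, e j a', e k a'') ∧
        (ENNReal.ofReal (w i a) + ENNReal.ofReal (w j a') + ENNReal.ofReal (w k a'') =
          tripleCost s (e i a, e j a', e k a'') → good i j k ∧ a = a' ∧ a' = a'')) ∧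
      (∀ i j k, good i j k → ∀ a ∈ closedBall (0 : E) r,
        ENNReal.ofReal (w i a) + ENNReal.ofReal (w j a) + ENNReal.ofReal (w k a) =
          tripleCost s (e i a, e j a, e k a)) := by
  have hb1 : b1 ≠ 0 := by rw [← norm_ne_zero_iff, h1]; exact one_ne_zero
  have hb2 : b2 ≠ 0 := by rw [← norm_ne_zero_iff, h2]; exact one_ne_zero
  have hbr := fun b (hb : b ≠ 0) => exists_branch (kphi s : E → ℝ) (kgrad s)
    (fun v hv => hasFDerivAt_kphi s hv) (contDiffOn_kgrad s)
    (fun v hv => injective_fderiv_kgrad hs hv) (kgrad_neg s) (kphi_neg s) b hb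
  obtain ⟨K, hK1, hK2⟩ := ((hbr b1 hb1).and (hbr b2 hb2)).exists
  set β : ℝ := (4 : ℝ) ^ (-s / 2) / 2 with hβ
  have hβpos : 0 < β := by positivity
  obtain ⟨eY1, eZ1, wB1, wC1, r1, hr1, sY1, sZ1, cY1, cY1', cZ1, cZ1', vY1, vZ1, kB1, kC1, wC10,
    -, heq1, hle1⟩ := hK1 2 β
  obtain ⟨eY2, eZ2, wB2, wC2, r2, hr2, sY2, sZ2, cY2, cY2', cZ2, cZ2', vY2, vZ2, kB2, kC2, wC20,
    -, heq2, hle2⟩ := hK2 2 β
  let e : Fin 5 → OpenPartialHomeomorph E E := ![OpenPartialHomeomorph.refl E, eY1, eZ1, eY2, eZ2]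
  let wA : E → ℝ := fun a => 2 - K / 2 * ‖a‖ ^ 2
  let w : Fin 5 → E → ℝ := ![wA, wB1, wC1, wB2, wC2]
  let p : Fin 5 → E := ![0, b1, -b1, b2, -b2]
  let v : Fin 5 → ℝ := ![2, β, β, β, β]
  let r0 := min r1 r2
  have hr0 : 0 < r0 := lt_min hr1 hr2
  have sb1 : ball (0 : E) r0 ⊆ ball 0 r1 := ball_subset_ball (min_le_left _ _)
  have sb2 : ball (0 : E) r0 ⊆ ball 0 r2 := ball_subset_ball (min_le_right _ _)
  have hsrc : ∀ i, ball (0 : E) r0 ⊆ (e i).source := by
    intro i
    fin_cases i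
    · exact subset_univ _
    · exact sb1.trans sY1
    · exact sb1.trans sZ1
    · exact sb2.trans sY2
    · exact sb2.trans sZ2
  have hwc : ∀ i, ContinuousOn (w i) (ball 0 r0) := by
    intro i
    fin_cases i
    · exact (by fun_prop : Continuous wA).continuousOn
    · exact kB1.mono sb1
    · exact kC1.mono sb1
    · exact kB2.mono sb2
    · exact kC2.mono sb2
  have hp : ∀ i, e i 0 = p i := by
    intro i
    fin_cases i
    · rfl
    · exact vY1
    · exact vZ1
    · exact vY2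
    · exact vZ2
  have hdist : ∀ i j, ‖p i - p j‖ ^ 2 = sqTab i j := center_dist b1 b2 h1 h2 h12
  have hkp : ∀ i j, kphi s (p i - p j) = sqTab i j ^ (-s / 2) := fun i j => by
    rw [kphi_eq, hdist]
  have hpne : ∀ i j, i ≠ j → p i - p j ≠ 0 := fun i j hij h => by
    have := sqTab_pos i j hij
    rw [← hdist, h] at this
    simp at this
  have hv : ∀ i, w i 0 = v i := by
    intro i
    fin_cases i
    · simp [w, wA, v]
    · have := heq1 0
      rw [vY1, vZ1, wC10] at this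
      have a1 := hkp 0 1
      have a2 := hkp 0 2
      have a3 := hkp 1 2
      simp only [p, sqTab, Matrix.cons_val, Real.one_rpow] at a1 a2 a3
      rw [a1, a2, a3] at this
      change wB1 0 = β
      simp only [norm_zero] at this
      linarith
    · exact wC10
    · have := heq2 0
      rw [vY2, vZ2, wC20] at this
      have a1 := hkp 0 3
      have a2 := hkp 0 4
      have a3 := hkp 3 4
      simp only [p, sqTab, Matrix.cons_val, Real.one_rpow] at a1 a2 a3
      rw [a1, a2, a3] at this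
      change wB2 0 = β
      simp only [norm_zero] at this
      linarith
    · exact wC20
  have hvpos : ∀ i, 0 < v i := by
    intro i
    fin_cases i <;> simp [v, hβpos]
  have hec : ∀ i, ContinuousAt (e i) 0 := fun i =>
    (e i).continuousAt (hsrc i (mem_ball_self hr0))
  have hwa : ∀ i, ContinuousAt (w i) 0 := fun i =>
    (hwc i).continuousAt (ball_mem_nhds _ hr0)
  have t1 : Tendsto (fun t : E × E × E => t.1) (𝓝 0) (𝓝 0) := continuous_fst.tendsto' _ _ rfl
  have t2 : Tendsto (fun t : E × E × E => t.2.1) (𝓝 0) (𝓝 0) :=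
    (by fun_prop : Continuous fun t : E × E × E => t.2.1).tendsto' _ _ rfl
  have t3 : Tendsto (fun t : E × E × E => t.2.2) (𝓝 0) (𝓝 0) :=
    (by fun_prop : Continuous fun t : E × E × E => t.2.2).tendsto' _ _ rfl
  have ev1 : ∀ᶠ t : E × E × E in 𝓝 0, ∀ i, 0 < w i t.1 := by
    rw [eventually_all]
    intro i
    exact ((hwa i).tendsto.comp t1).eventually (lt_mem_nhds (by rw [hv]; exact hvpos i))
  have ev2 : ∀ᶠ t : E × E × E in 𝓝 0, ∀ i j, i ≠ j → e i t.1 - e j t.2.1 ≠ 0 := by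
    simp only [eventually_all]
    intro i j hij
    have := ((hec i).tendsto.comp t1).sub ((hec j).tendsto.comp t2)
    rw [hp, hp] at this
    exact this.eventually_ne (hpne i j hij)
  have ev3 : ∀ᶠ t : E × E × E in 𝓝 0, ∀ i j k, ¬ good i j k →
      ENNReal.ofReal (w i t.1) + ENNReal.ofReal (w j t.2.1) + ENNReal.ofReal (w k t.2.2) <
        tripleCost s (e i t.1, e j t.2.1, e k t.2.2) := by
    simp only [eventually_all]
    intro i j k hg
    have l1 := (((ENNReal.continuous_ofReal.tendsto _).comp ((hwa i).tendsto.comp t1)).add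
      ((ENNReal.continuous_ofReal.tendsto _).comp ((hwa j).tendsto.comp t2))).add
      ((ENNReal.continuous_ofReal.tendsto _).comp ((hwa k).tendsto.comp t3))
    have l2 := ((continuous_tripleCost (E := E) s).tendsto _).comp
      (((hec i).tendsto.comp t1).prodMk_nhds (((hec j).tendsto.comp t2).prodMk_nhds
        ((hec k).tendsto.comp t3)))
    refine l1.eventually_lt l2 ?_
    rw [hp, hp, hp, hv, hv, hv]
    by_cases hij : i = j
    · subst hij
      simp [tripleCost, pairCost_self hs]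
    by_cases hik : i = k
    · subst hik
      simp [tripleCost, pairCost_self hs]
    by_cases hjk : j = k
    · subst hjk
      simp [tripleCost, pairCost_self hs]
    rw [tripleCost_eq s (hpne _ _ hij) (hpne _ _ hik) (hpne _ _ hjk), hkp, hkp, hkp,
      ← ENNReal.ofReal_add (hvpos i).le (hvpos j).le,
      ← ENNReal.ofReal_add (add_pos (hvpos i) (hvpos j)).le (hvpos k).le]
    have := center_gap hs i j k hij hik hjk hg
    refine (ENNReal.ofReal_lt_ofReal_iff ?_).2 this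
    exact lt_trans (add_pos (add_pos (hvpos i) (hvpos j)) (hvpos k)) this
  have ev4 : ∀ᶠ t : E × E × E in 𝓝 0, t.1 ∈ ball (0 : E) r0 := t1.eventually (ball_mem_nhds _ hr0)
  obtain ⟨r, hr, hall⟩ := Metric.nhds_basis_closedBall.eventually_iff.1
    (ev1.and (ev2.and (ev3.and ev4)))
  have hall' : ∀ a ∈ closedBall (0 : E) r, ∀ a' ∈ closedBall (0 : E) r,
      ∀ a'' ∈ closedBall (0 : E) r, _ := fun a ha a' ha' a'' ha'' =>
    hall (x := (a, a', a'')) (by
      rw [mem_closedBall, Prod.dist_eq, Prod.dist_eq]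
      exact max_le ha (max_le ha' ha''))
  have hsub : closedBall (0 : E) r ⊆ ball 0 r0 := fun a ha => (hall' a ha a ha a ha).2.2.2
  have hwpos : ∀ i, ∀ a ∈ closedBall (0 : E) r, 0 < w i a := fun i a ha =>
    (hall' a ha a ha a ha).1 i
  have hne : ∀ i j, i ≠ j → ∀ a ∈ closedBall (0 : E) r, ∀ a' ∈ closedBall (0 : E) r,
      e i a - e j a' ≠ 0 := fun i j hij a ha a' ha' => (hall' a ha a' ha' a ha).2.1 i j hij
  -- the good patterns
  let Q : Fin 5 → Fin 5 → Fin 5 → Prop := fun i j k =>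
    (∀ a ∈ closedBall (0 : E) r, ∀ a' ∈ closedBall (0 : E) r, ∀ a'' ∈ closedBall (0 : E) r,
      ENNReal.ofReal (w i a) + ENNReal.ofReal (w j a') + ENNReal.ofReal (w k a'') ≤
          tripleCost s (e i a, e j a', e k a'') ∧
        (ENNReal.ofReal (w i a) + ENNReal.ofReal (w j a') + ENNReal.ofReal (w k a'') =
          tripleCost s (e i a, e j a', e k a'') → a = a' ∧ a' = a'')) ∧
    ∀ a ∈ closedBall (0 : E) r,
      ENNReal.ofReal (w i a) + ENNReal.ofReal (w j a) + ENNReal.ofReal (w k a) =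
          tripleCost s (e i a, e j a, e k a)
  have Q12 : ∀ i j k, Q i j k → Q j i k := by
    rintro i j k ⟨q1, q2⟩
    refine ⟨fun a ha a' ha' a'' ha'' => ?_, fun a ha => ?_⟩
    · rw [tripleCost_swap12, add_comm (ENNReal.ofReal (w j a))]
      obtain ⟨u1, u2⟩ := q1 a' ha' a ha a'' ha''
      exact ⟨u1, fun h => ⟨(u2 h).1.symm, (u2 h).1.trans (u2 h).2⟩⟩
    · rw [tripleCost_swap12, add_comm (ENNReal.ofReal (w j a))]
      exact q2 a ha
  have Q23 : ∀ i j k, Q i j k → Q i k j := by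
    rintro i j k ⟨q1, q2⟩
    refine ⟨fun a ha a' ha' a'' ha'' => ?_, fun a ha => ?_⟩
    · rw [tripleCost_swap23, add_right_comm]
      obtain ⟨u1, u2⟩ := q1 a ha a'' ha'' a' ha'
      exact ⟨u1, fun h => ⟨(u2 h).1.trans (u2 h).2, (u2 h).2.symm⟩⟩
    · rw [tripleCost_swap23, add_right_comm]
      exact q2 a ha
  have Qbase : ∀ j k : Fin 5, 0 ≠ j → 0 ≠ k → j ≠ k →
      (∀ a, wA a + w j a + w k a =
        kphi s (a - e j a) + kphi s (a - e k a) + kphi s (e j a - e k a)) →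
      (∀ a ∈ ball (0 : E) r0, ∀ a' ∈ ball (0 : E) r0, ∀ a'' ∈ ball (0 : E) r0,
        wA a + w j a' + w k a'' + ‖a - a'‖ ^ 2 + ‖e k a'' - e k a'‖ ^ 2 ≤
          kphi s (a - e j a') + kphi s (a - e k a'') + kphi s (e j a' - e k a'')) →
      Q 0 j k := by
    intro j k hj hk hjk q1 q2
    have hrw : ∀ a ∈ closedBall (0 : E) r, ∀ a' ∈ closedBall (0 : E) r,
        ∀ a'' ∈ closedBall (0 : E) r,
        ENNReal.ofReal (w 0 a) + ENNReal.ofReal (w j a') + ENNReal.ofReal (w k a'') =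
          ENNReal.ofReal (wA a + w j a' + w k a'') ∧
        tripleCost s (e 0 a, e j a', e k a'') = ENNReal.ofReal
          (kphi s (a - e j a') + kphi s (a - e k a'') + kphi s (e j a' - e k a'')) := by
      intro a ha a' ha' a'' ha''
      refine ⟨?_, tripleCost_eq s (hne 0 j hj a ha a' ha') (hne 0 k hk a ha a'' ha'')
        (hne j k hjk a' ha' a'' ha'')⟩
      rw [← ENNReal.ofReal_add (hwpos 0 a ha).le (hwpos j a' ha').le,
        ← ENNReal.ofReal_add (add_pos (hwpos 0 a ha) (hwpos j a' ha')).le (hwpos k a'' ha'').le]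
      rfl
    refine ⟨fun a ha a' ha' a'' ha'' => ?_, fun a ha => ?_⟩
    · obtain ⟨u1, u2⟩ := hrw a ha a' ha' a'' ha''
      rw [u1, u2]
      have q := q2 a (hsub ha) a' (hsub ha') a'' (hsub ha'')
      have n1 := sq_nonneg ‖a - a'‖
      have n2 := sq_nonneg ‖e k a'' - e k a'‖
      refine ⟨ENNReal.ofReal_le_ofReal (by linarith), fun h => ?_⟩
      have hpos : 0 ≤ wA a + w j a' + w k a'' :=
        (add_pos (add_pos (hwpos 0 a ha) (hwpos j a' ha')) (hwpos k a'' ha'')).le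
      rw [ENNReal.ofReal_eq_ofReal_iff hpos (by linarith)] at h
      have z1 : ‖a - a'‖ ^ 2 = 0 := by linarith
      have z2 : ‖e k a'' - e k a'‖ ^ 2 = 0 := by linarith
      rw [sq_eq_zero_iff, norm_eq_zero, sub_eq_zero] at z1 z2
      exact ⟨z1, ((e k).injOn (hsrc k (hsub ha'')) (hsrc k (hsub ha')) z2).symm⟩
    · obtain ⟨u1, u2⟩ := hrw a ha a ha a ha
      rw [u1, u2, q1]
  have Q012 : Q 0 1 2 := Qbase 1 2 (by decide) (by decide) (by decide) heq1
    fun a ha a' ha' a'' ha'' => hle1 a (sb1 ha) a' (sb1 ha') a'' (sb1 ha'')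
  have Q034 : Q 0 3 4 := Qbase 3 4 (by decide) (by decide) (by decide) heq2
    fun a ha a' ha' a'' ha'' => hle2 a (sb2 ha) a' (sb2 ha') a'' (sb2 ha'')
  have Qall : ∀ i j k, good i j k → Q i j k := by
    have hcases : ∀ i j k, good i j k → ∃ j' k', ((j' = 1 ∧ k' = 2) ∨ (j' = 3 ∧ k' = 4)) ∧
        ((i = 0 ∧ j = j' ∧ k = k') ∨ (i = 0 ∧ j = k' ∧ k = j') ∨ (i = j' ∧ j = 0 ∧ k = k') ∨
         (i = j' ∧ j = k' ∧ k = 0) ∨ (i = k' ∧ j = 0 ∧ k = j') ∨ (i = k' ∧ j = j' ∧ k = 0)) := by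
      decide
    intro i j k hg
    obtain ⟨j', k', hjk, hc⟩ := hcases i j k hg
    have q : Q 0 j' k' := by
      rcases hjk with ⟨rfl, rfl⟩ | ⟨rfl, rfl⟩
      exacts [Q012, Q034]
    rcases hc with ⟨rfl, rfl, rfl⟩ | ⟨rfl, rfl, rfl⟩ | ⟨rfl, rfl, rfl⟩ | ⟨rfl, rfl, rfl⟩ |
      ⟨rfl, rfl, rfl⟩ | ⟨rfl, rfl, rfl⟩
    · exact q
    · exact Q23 _ _ _ q
    · exact Q12 _ _ _ q
    · exact Q23 _ _ _ (Q12 _ _ _ q)
    · exact Q12 _ _ _ (Q23 _ _ _ q)
    · exact Q23 _ _ _ (Q12 _ _ _ (Q23 _ _ _ q))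
  refine ⟨e, w, r, hr, fun i => hsub.trans (hsrc i), ?_, ?_, fun x => rfl,
    fun i => (hwc i).mono hsub, fun i j hij a ha a' ha' => sub_ne_zero.1 (hne i j hij a ha a' ha'),
    ?_, fun i j k hg => (Qall i j k hg).2⟩
  · intro i
    fin_cases i
    · exact contDiffOn_id
    exacts [cY1, cZ1, cY2, cZ2]
  · intro i
    fin_cases i
    · exact contDiffOn_id
    exacts [cY1', cZ1', cY2', cZ2']
  · intro i j k a ha a' ha' a'' ha''
    by_cases hg : good i j k
    · obtain ⟨u1, u2⟩ := (Qall i j k hg).1 a ha a' ha' a'' ha''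
      exact ⟨u1, fun h => ⟨hg, u2 h⟩⟩
    · have := (hall' a ha a' ha' a'' ha'').2.2.1 i j k hg
      exact ⟨this.le, fun h => absurd h this.ne⟩

end Crest.Agent.R130
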