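import Mathlib

/-! Transport lemmas: a finite measure without atoms can be pushed onto any finite measure of the
same total mass (standard Borel spaces). -/

set_option autoImplicit false

namespace Crest.Agent.R130

open MeasureTheory ProbabilityTheory Set Filter Topology unitInterval
open scoped ENNReal

theorem continuous_cdf_of_noAtoms (ν : Measure ℝ) [IsProbabilityMeasure ν] [NullSingletonClass ν] :
    Continuous (cdf ν) := by
  rw [continuous_iff_continuousAt]
  intro x
  have hm : Monotone (cdf ν) := monotone_cdf ν
  rw [hm.continuousAt_iff_leftLim_eq_rightLim, (cdf ν).rightLim_eq]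
  have h1 := (cdf ν).measure_singleton x
  rw [measure_cdf, measure_singleton] at h1
  have h2 : Function.leftLim (cdf ν) x ≤ cdf ν x := hm.leftLim_le le_rfl
  have h3 := ENNReal.ofReal_eq_zero.1 h1.symm
  linarith

theorem exists_uniformize_real (ν : Measure ℝ) [IsProbabilityMeasure ν] [NullSingletonClass ν] :
    ∃ U : ℝ → I, Measurable U ∧ ν.map U = volume := by
  have hc := continuous_cdf_of_noAtoms ν
  let U : ℝ → I := fun x => ⟨cdf ν x, cdf_nonneg ν x, cdf_le_one ν x⟩
  have hU : Measurable U := hc.measurable.subtype_mk
  refine ⟨U, hU, ?_⟩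
  have : IsProbabilityMeasure (ν.map U) := Measure.isProbabilityMeasure_map hU.aemeasurable
  refine Measure.ext_of_Iic _ _ fun t => ?_
  rw [Measure.map_apply hU measurableSet_Iic, unitInterval.volume_Iic]
  have hS : U ⁻¹' Iic t = {x | cdf ν x ≤ (t : ℝ)} := by
    ext x; simp only [mem_preimage, mem_Iic, mem_ofPred_eq, U]; exact Iff.rfl
  rw [hS]
  rcases eq_or_lt_of_le t.2.2 with h1 | h1
  · have : {x | cdf ν x ≤ (t : ℝ)} = univ := by
      ext x; simp only [mem_ofPred_eq, mem_univ, iff_true]; rw [h1]; exact cdf_le_one ν x
    rw [this, h1]; simp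
  · set S := {x | cdf ν x ≤ (t : ℝ)} with hSdef
    have hbdd : BddAbove S := by
      have := (tendsto_cdf_atTop ν).eventually (lt_mem_nhds h1)
      obtain ⟨M, hM⟩ := eventually_atTop.1 this
      refine ⟨M, fun x hx => ?_⟩
      by_contra h
      have := hM x (le_of_lt (not_le.1 h))
      exact absurd hx (not_le.2 this)
    rcases S.eq_empty_or_nonempty with hE | hne
    · rw [hE, measure_empty]
      have hle : (t : ℝ) ≤ 0 := by
        refine ge_of_tendsto (tendsto_cdf_atBot ν) (Eventually.of_forall fun x => ?_)
        have : x ∉ S := by rw [hE]; exact notMem_empty x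
        exact le_of_lt (not_le.1 this)
      rw [ENNReal.ofReal_eq_zero.2 hle]
    · have hcl : IsClosed S := isClosed_le hc continuous_const
      have hq : sSup S ∈ S := hcl.csSup_mem hne hbdd
      have hSI : S = Iic (sSup S) := by
        ext x
        constructor
        · intro hx; exact le_csSup hbdd hx
        · intro hx; exact le_trans (monotone_cdf ν hx) hq
      have hge : (t : ℝ) ≤ cdf ν (sSup S) := by
        have ht : Tendsto (cdf ν) (𝓝[>] (sSup S)) (𝓝 (cdf ν (sSup S))) :=
          (hc.tendsto _).mono_left nhdsWithin_le_nhds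
        refine ge_of_tendsto ht (eventually_nhdsWithin_of_forall fun y hy => ?_)
        by_contra h
        have : y ∈ S := le_of_lt (not_le.1 h)
        exact absurd (le_csSup hbdd this) (not_le.2 hy)
      rw [hSI, ← ofReal_cdf, le_antisymm hq hge]

theorem exists_uniformize {X : Type*} [MeasurableSpace X] [StandardBorelSpace X]
    (α : Measure X) [IsProbabilityMeasure α] [NullSingletonClass α] :
    ∃ U : X → I, Measurable U ∧ α.map U = volume := by
  have he := measurableEmbedding_embeddingReal X
  have : IsProbabilityMeasure (α.map (embeddingReal X)) :=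
    Measure.isProbabilityMeasure_map he.measurable.aemeasurable
  have : NullSingletonClass (α.map (embeddingReal X)) := ⟨fun y => by
    rw [he.map_apply]
    exact (Set.Subsingleton.preimage subsingleton_singleton he.injective).measure_zero _⟩
  obtain ⟨U, hU, hmap⟩ := exists_uniformize_real (α.map (embeddingReal X))
  exact ⟨U ∘ embeddingReal X, hU.comp he.measurable, by
    rw [← Measure.map_map hU he.measurable, hmap]⟩

/-- A finite atomless measure can be pushed onto any finite measure with the same mass. -/
theorem exists_map_eq_of_mass_eq {X Y : Type*} [MeasurableSpace X] [StandardBorelSpace X]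
    [MeasurableSpace Y] [StandardBorelSpace Y] [Nonempty Y]
    (α : Measure X) [IsFiniteMeasure α] [NullSingletonClass α] (β : Measure Y) [IsFiniteMeasure β]
    (h : α univ = β univ) : ∃ T : X → Y, Measurable T ∧ α.map T = β := by
  by_cases h0 : α univ = 0
  · have hα : α = 0 := Measure.measure_univ_eq_zero.1 h0
    have hβ : β = 0 := Measure.measure_univ_eq_zero.1 (h ▸ h0)
    exact ⟨fun _ => Classical.arbitrary Y, measurable_const, by rw [hα, hβ, Measure.map_zero]⟩
  · have hfin : α univ ≠ ⊤ := measure_ne_top _ _
    have : IsProbabilityMeasure ((α univ)⁻¹ • α) :=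
      ⟨by rw [Measure.smul_apply, smul_eq_mul, ENNReal.inv_mul_cancel h0 hfin]⟩
    have : IsProbabilityMeasure ((α univ)⁻¹ • β) :=
      ⟨by rw [Measure.smul_apply, smul_eq_mul, ← h, ENNReal.inv_mul_cancel h0 hfin]⟩
    have : NullSingletonClass ((α univ)⁻¹ • α) := ⟨fun x => by simp⟩
    obtain ⟨U, hU, hUm⟩ := exists_uniformize ((α univ)⁻¹ • α)
    obtain ⟨G, hG, hGm⟩ := Measure.exists_measurable_map_eq ((α univ)⁻¹ • β)
    refine ⟨G ∘ U, hG.comp hU, ?_⟩
    have h1 : ((α univ)⁻¹ • α).map (G ∘ U) = (α univ)⁻¹ • β := by
      rw [← Measure.map_map hG hU, hUm, hGm]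
    rw [Measure.map_smul] at h1
    have h2 := congrArg (fun m : Measure Y => (α univ) • m) h1
    simp only [smul_smul, ENNReal.mul_inv_cancel h0 hfin, one_smul] at h2
    exact h2

end Crest.Agent.R130
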