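import Mathlib
import Crest.Agent.R130.Transport

/-! Monge plans approximate any coupling whose cost is finite on a compact carrier. -/

set_option autoImplicit false

namespace Crest.Agent.R130

open MeasureTheory ProbabilityTheory Set Filter Topology Metric
open scoped ENNReal

theorem exists_map_close {E Y : Type*} [MetricSpace E] [MeasurableSpace E] [BorelSpace E]
    [SecondCountableTopology E] [StandardBorelSpace E]
    [MeasurableSpace Y] [StandardBorelSpace Y] [Nonempty E] [Nonempty Y]
    (μ : Measure E) [IsFiniteMeasure μ] [NullSingletonClass μ] (π : Measure (E × Y))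
    [IsFiniteMeasure π] (h1 : π.map Prod.fst = μ) {δ : ℝ} (hδ : 0 < δ) :
    ∃ T : E → E × Y, Measurable T ∧ μ.map T = π ∧ ∀ᵐ x ∂μ, dist x (T x).1 ≤ δ := by
  classical
  obtain ⟨As, hmeas, hbdd, hdiam, hcov, hdisj⟩ :=
    SeparableSpace.exists_measurable_partition_diam_le E hδ
  have hT : ∀ n, ∃ T : E → E × Y, Measurable T ∧
      (μ.restrict (As n)).map T = π.restrict (Prod.fst ⁻¹' As n) := by
    intro n
    apply exists_map_eq_of_mass_eq
    rw [Measure.restrict_apply_univ, Measure.restrict_apply_univ, ← h1,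
      Measure.map_apply measurable_fst (hmeas n)]
  choose Tn hTm hTmap using hT
  have hex : ∀ x : E, ∃ n, x ∈ As n := fun x => by
    have : x ∈ ⋃ n, As n := hcov ▸ mem_univ x
    exact mem_iUnion.1 this
  let T : E → E × Y := fun x => Tn (Nat.find (hex x)) x
  have hTmeas : Measurable T := Measurable.find hTm (fun n => hmeas n) hex
  have hTeq : ∀ n, ∀ x ∈ As n, T x = Tn n x := by
    intro n x hx
    have h := Nat.find_spec (hex x)
    have : Nat.find (hex x) = n := by
      by_contra hne
      exact Set.disjoint_left.1 (hdisj hne) h hx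
    simp only [T, this]
  have hμ : μ = Measure.sum fun n => μ.restrict (As n) := by
    rw [← Measure.restrict_iUnion hdisj hmeas, hcov, Measure.restrict_univ]
  have hπ : π = Measure.sum fun n => π.restrict (Prod.fst ⁻¹' As n) := by
    rw [← Measure.restrict_iUnion (fun n m h => (hdisj h).preimage _)
      (fun n => measurable_fst (hmeas n)), ← preimage_iUnion, hcov, preimage_univ,
      Measure.restrict_univ]
  have hae : ∀ n, T =ᵐ[μ.restrict (As n)] Tn n := fun n =>
    (ae_restrict_iff' (hmeas n)).2 (Eventually.of_forall (hTeq n))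
  refine ⟨T, hTmeas, ?_, ?_⟩
  · conv_lhs => rw [hμ]
    rw [Measure.map_sum hTmeas.aemeasurable]
    conv_rhs => rw [hπ]
    congr 1
    funext n
    rw [Measure.map_congr (hae n), hTmap]
  · rw [hμ, Measure.ae_sum_iff]
    intro n
    have hA : ∀ᵐ p ∂(π.restrict (Prod.fst ⁻¹' As n)), p.1 ∈ As n :=
      ae_restrict_mem (measurable_fst (hmeas n))
    rw [← hTmap n] at hA
    have hB := ae_of_ae_map (hTm n).aemeasurable hA
    filter_upwards [hB, hae n, ae_restrict_mem (hmeas n)] with x hx1 hx2 hx3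
    rw [hx2]
    exact (dist_le_diam_of_mem (hbdd n) hx3 hx1).trans (hdiam n)

theorem monge_approx {E : Type*} [NormedAddCommGroup E] [MeasurableSpace E] [BorelSpace E]
    [SecondCountableTopology E] [CompleteSpace E]
    (c : E × E × E → ℝ≥0∞) (hc : Continuous c)
    (μ : Measure E) [IsProbabilityMeasure μ] [NullSingletonClass μ] (π : Measure (E × E × E))
    (h1 : π.map (fun p => p.1) = μ) (h2 : π.map (fun p => p.2.1) = μ)
    (h3 : π.map (fun p => p.2.2) = μ)
    (G : Set (E × E × E)) (hG : IsCompact G) (hπG : ∀ᵐ p ∂π, p ∈ G) (hfin : ∀ p ∈ G, c p ≠ ⊤)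
    (hint : ∫⁻ p, c p ∂π ≠ ⊤) (ε : ℝ≥0∞) (hε : 0 < ε) :
    ∃ T₂ T₃ : E → E, Measurable T₂ ∧ Measurable T₃ ∧ μ.map T₂ = μ ∧ μ.map T₃ = μ ∧
      ∫⁻ x, c (x, T₂ x, T₃ x) ∂μ < ∫⁻ p, c p ∂π + ε := by
  obtain ⟨η, hη0, hηε⟩ := exists_between hε
  have hπu : π univ = 1 := by
    have := congrArg (fun m : Measure E => m univ) h1
    simp only [Measure.map_apply measurable_fst MeasurableSet.univ, preimage_univ,
      measure_univ] at this
    exact this
  have : IsFiniteMeasure π := ⟨by rw [hπu]; exact ENNReal.one_lt_top⟩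
  have htube : ∀ᶠ v in 𝓝 (0 : E), ∀ p ∈ G, c (p.1 + v, p.2) < c p + η := by
    apply hG.eventually_forall_of_forall_eventually
    intro p hp
    have hca : Continuous fun z : E × (E × E × E) => c (z.2.1 + z.1, z.2.2) := by fun_prop
    have hcb : Continuous fun z : E × (E × E × E) => c z.2 + η := by fun_prop
    apply (isOpen_lt hca hcb).mem_nhds
    simp only [mem_ofPred_eq, add_zero]
    exact ENNReal.lt_add_right (hfin p hp) hη0.ne'
  obtain ⟨δ, hδ, hδ'⟩ := Metric.nhds_basis_closedBall.eventually_iff.1 htube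
  obtain ⟨T, hT, hTmap, hTd⟩ := exists_map_close μ π h1 hδ
  have hm2 : Measurable fun p : E × E × E => p.2.1 := by fun_prop
  have hm3 : Measurable fun p : E × E × E => p.2.2 := by fun_prop
  refine ⟨fun x => (T x).2.1, fun x => (T x).2.2, hm2.comp hT, hm3.comp hT, ?_, ?_, ?_⟩
  · conv_rhs => rw [← h2, ← hTmap, Measure.map_map hm2 hT]
    rfl
  · conv_rhs => rw [← h3, ← hTmap, Measure.map_map hm3 hT]
    rfl
  · have hG' : ∀ᵐ x ∂μ, T x ∈ G := by
      rw [← hTmap] at hπG
      exact ae_of_ae_map hT.aemeasurable hπG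
    have hle : ∀ᵐ x ∂μ, c (x, (T x).2.1, (T x).2.2) ≤ c (T x) + η := by
      filter_upwards [hG', hTd] with x hx1 hx2
      have := hδ' (x := x - (T x).1) (by simpa [dist_eq_norm] using hx2) (T x) hx1
      simp only [add_sub_cancel] at this
      exact this.le
    calc ∫⁻ x, c (x, (T x).2.1, (T x).2.2) ∂μ ≤ ∫⁻ x, (c (T x) + η) ∂μ := lintegral_mono_ae hle
      _ = ∫⁻ p, c p ∂π + η := by
        rw [lintegral_add_right _ measurable_const, lintegral_const, measure_univ, mul_one,
          ← hTmap, lintegral_map hc.measurable hT]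
      _ < ∫⁻ p, c p ∂π + ε := ENNReal.add_lt_add_left hint hηε

end Crest.Agent.R130
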